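import Vale.Agent.P088.H442.C.Defs
import Vale.Agent.P088.H535.USmk
import Vale.Agent.P088.H159.USm
import Vale.Agent.P088.H884.A4
import Vale.Agent.P088.H158.ConnA

/-!
# P088, theorem C, row C_BA: the potentials `q₀`, `q`, their supports and size
-/

open MeasureTheory Set
open scoped ContDiff Matrix

noncomputable section

namespace Vale.Agent.P088.LR.CC.H129

open Vale.Agent.P088.LR Vale.Agent.P088.LR.CF Vale.Agent.P088.LR.CC

variable {n : ℕ}

/-- `div (t ∇u)`, real. -/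
def dR (t : MF n) (u : V n → ℝ) (x : V n) : ℝ :=
  ∑ i, pd i (fun y => ∑ j, t y i j * pd j u y) x

theorem pd_cx {f : V n → ℝ} (hf : ContDiff ℝ ∞ f) (i : Fin n) (x : V n) :
    pd i (cx f) x = ((pd i f x : ℝ) : ℂ) :=
  H158.pd_clm Complex.ofRealCLM (H158.dfa hf x) i

theorem contDiff_cx {f : V n → ℝ} (hf : ContDiff ℝ ∞ f) : ContDiff ℝ ∞ (cx f) :=
  Complex.ofRealCLM.contDiff.comp hf

theorem contDiff_fR {t : MF n} (ht : SmM t) {f : V n → ℝ} (hf : ContDiff ℝ ∞ f) (i : Fin n) :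
    ContDiff ℝ ∞ fun y => ∑ j, t y i j * pd j f y :=
  ContDiff.sum fun j _ => (ht i j).mul (H158.contDiff_pd hf j)

theorem contDiff_dR {t : MF n} (ht : SmM t) {f : V n → ℝ} (hf : ContDiff ℝ ∞ f) :
    ContDiff ℝ ∞ (dR t f) :=
  ContDiff.sum fun i _ => H158.contDiff_pd (contDiff_fR ht hf i) i

theorem dv_cx {t : MF n} (ht : SmM t) {f : V n → ℝ} (hf : ContDiff ℝ ∞ f) (x : V n) :
    dv t (cx f) x = ((dR t f x : ℝ) : ℂ) := by
  unfold dv dR
  rw [Complex.ofReal_sum]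
  refine Finset.sum_congr rfl fun i _ => ?_
  have e : (fun y => ∑ j, (t y i j : ℂ) * pd j (cx f) y) =
      cx (fun y => ∑ j, t y i j * pd j f y) := by
    funext y
    show ∑ j, (t y i j : ℂ) * pd j (cx f) y = ((∑ j, t y i j * pd j f y : ℝ) : ℂ)
    rw [Complex.ofReal_sum]
    refine Finset.sum_congr rfl fun j _ => ?_
    rw [pd_cx hf, Complex.ofReal_mul]
  rw [e, pd_cx (contDiff_fR ht hf i)]

/-- Existence of the potential. -/
theorem bac2 {φ : V n → ℝ} (hφ : SmP φ) {t : MF n} (ht : SmM t) :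
    ∃ q : V n → ℝ, ContDiff ℝ ∞ q ∧ ∀ x, dv t (cx φ) x = (q x : ℂ) * φ x := by
  refine ⟨fun x => dR t φ x * (φ x)⁻¹, (contDiff_dR ht hφ.1).mul
    (hφ.1.inv fun x => (hφ.2 x).ne'), fun x => ?_⟩
  rw [dv_cx ht hφ.1]
  have h0 := (hφ.2 x).ne'
  rw [← Complex.ofReal_mul, mul_assoc, inv_mul_cancel₀ h0, mul_one]

theorem smM_one : SmM (fun _ => 1 : MF n) := fun _ _ => contDiff_const

theorem contDiff_fE {t : MF n} (ht : SmM t) {f : V n → ℂ} (hf : ContDiff ℝ ∞ f) (i : Fin n) :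
    ContDiff ℝ ∞ fun y => ∑ j, ent t i j y * pd j f y :=
  ContDiff.sum fun j _ => (Complex.ofRealCLM.contDiff.comp ((ht i j).sub contDiff_const)).mul
    (H158.contDiff_pd hf j)

theorem contDiff_fC {t : MF n} (ht : SmM t) {f : V n → ℂ} (hf : ContDiff ℝ ∞ f) (i : Fin n) :
    ContDiff ℝ ∞ fun y => ∑ j, (t y i j : ℂ) * pd j f y :=
  ContDiff.sum fun j _ => (Complex.ofRealCLM.contDiff.comp (ht i j)).mul (H158.contDiff_pd hf j)

theorem dv_diff {t : MF n} (ht : SmM t) {f : V n → ℂ} (hf : ContDiff ℝ ∞ f) (x : V n) :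
    dv t f x - dv (fun _ => 1) f x = ∑ i, pd i (fun y => ∑ j, ent t i j y * pd j f y) x := by
  unfold dv
  rw [← Finset.sum_sub_distrib]
  refine Finset.sum_congr rfl fun i _ => ?_
  rw [← H158.pd_sub (H158.dfa (contDiff_fC ht hf i) x)
    (H158.dfa (contDiff_fC smM_one hf i) x) i]
  congr 1
  funext y
  rw [← Finset.sum_sub_distrib]
  refine Finset.sum_congr rfl fun j _ => ?_
  unfold ent
  rw [Complex.ofReal_sub]
  ring

theorem q0_off {φ q₀ : V n → ℝ} (B : Ba φ q₀) {x : V n} (hx : x ∉ bal n) : q₀ x = 0 := by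
  have hcl : IsClosed (bal n) := by
    have : Continuous fun x : V n => ∑ j, (x j - 1 / 2) ^ 2 :=
      continuous_finsetSum _ fun j _ => ((continuous_apply j).sub continuous_const).pow 2
    exact isClosed_le this continuous_const
  have h1 : ∀ j, ∀ y ∈ (bal n)ᶜ, pd j (cx φ) y = 0 := by
    intro j y hy
    rw [H158.pd_congr hcl.isOpen_compl (g := fun _ => (1 : ℂ)) (fun z hz => by
      show ((φ z : ℝ) : ℂ) = 1
      rw [B.one z hz, Complex.ofReal_one]) hy j]
    exact H158.pd_const _ _ _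
  have h2 : dv (fun _ => 1) (cx φ) x = 0 := by
    unfold dv
    refine Finset.sum_eq_zero fun i _ => ?_
    rw [H158.pd_congr hcl.isOpen_compl (g := fun _ => (0 : ℂ)) (fun z hz =>
      Finset.sum_eq_zero fun j _ => by rw [h1 j z hz, mul_zero]) hx i]
    exact H158.pd_const _ _ _
  rw [B.eq x, B.one x hx, Complex.ofReal_one, mul_one] at h2
  exact_mod_cast h2

theorem q_off {Ω : Set (V n)} {φ q₀ : V n → ℝ} {t : MF n} {q : V n → ℝ} (B : Bt Ω φ q₀ t q)
    {x : V n} (hx : x ∉ Ω) : q x = q₀ x := by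
  have hf : ContDiff ℝ ∞ (cx φ) := contDiff_cx B.ba.p.1
  have h1 := dv_diff B.sm hf x
  rw [B.eq x, B.ba.eq x] at h1
  have h2 : ∑ i, pd i (fun y => ∑ j, ent t i j y * pd j (cx φ) y) x = 0 := by
    refine Finset.sum_eq_zero fun i _ => ?_
    unfold pd
    have h3 := H158.fderiv_zero_off B.reg (contDiff_fE B.sm hf i) (fun y hy =>
      Finset.sum_eq_zero fun j _ => by
        unfold ent
        rw [B.off y hy, sub_self, Complex.ofReal_zero, zero_mul]) hx
    rw [show fderiv ℝ (fun y => ∑ j, ent t i j y * fderiv ℝ (cx φ) y (Pi.single j 1)) x = 0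
      from h3]
    rfl
  rw [h2, ← sub_mul] at h1
  have h4 : ((φ x : ℝ) : ℂ) ≠ 0 := by exact_mod_cast (B.ba.p.2 x).ne'
  have h5 := sub_eq_zero.1 ((mul_eq_zero.1 h1).resolve_right h4)
  exact_mod_cast h5

theorem bal_core : bal n ⊆ core n := by
  intro x hx j
  have h1 : (x j - 1 / 2) ^ 2 ≤ 1 / 16 :=
    (Finset.single_le_sum (f := fun j => (x j - 1 / 2) ^ 2) (fun i _ => sq_nonneg _)
      (Finset.mem_univ j)).trans hx
  constructor <;> nlinarith

/-- **Row C_BA** -/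
theorem bac : RowBAC := by
  refine ⟨fun φ hφ h1 => ?_, fun φ hφ t ht => bac2 hφ ht, fun Ω φ q₀ t q B =>
    ⟨fun x hx => q0_off B.ba hx, fun x hx => ?_, fun x hx => q_off B hx⟩, ?_⟩
  · obtain ⟨q, hq, h⟩ := bac2 hφ smM_one
    exact ⟨q, hφ, h1, hq, h⟩
  · rw [q_off B fun h => hx (B.sub h), q0_off B.ba hx]
  intro n M φ q₀ B
  have hf : ContDiff ℝ ∞ (cx φ) := contDiff_cx B.p.1
  have hφn : ∀ x, cx φ x ≠ 0 := fun x => by
    unfold cx
    exact_mod_cast (B.p.2 x).ne'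
  have hinv : ContDiff ℝ ∞ (fun y => (cx φ y)⁻¹) := hf.inv hφn
  have hone : ∀ x ∉ core n, cx φ x = 1 := fun x hx => by
    unfold cx
    rw [B.one x fun h => hx (bal_core h), Complex.ofReal_one]
  have hcc : IsCompact (core n) := by
    rw [H884.core_eq]
    exact isCompact_closedBall _ _
  have hf1 : ContDiff ℝ ∞ (fun y => cx φ y - 1) := hf.sub contDiff_const
  have hi1 : ContDiff ℝ ∞ (fun y => (cx φ y)⁻¹ - 1) := hinv.sub contDiff_const
  obtain ⟨B1, hB1, h1⟩ := H884.exists_cl (k := M + 2) hf1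
    (HasCompactSupport.intro hcc fun x hx => by rw [hone x hx, sub_self])
  obtain ⟨B2, hB2, h2⟩ := H884.exists_cl (k := M) hi1
    (HasCompactSupport.intro hcc fun x hx => by rw [hone x hx, inv_one, sub_self])
  have hpd : ∀ j, pd j (fun y => cx φ y - 1) = pd j (cx φ) := by
    intro j
    funext x
    rw [H158.pd_sub (H158.dfa hf x) (H158.dfa contDiff_const x) j, H158.pd_const, sub_zero]
  have h3 : ∀ j, Cl (M + 1) B1 (pd j (cx φ)) := fun j => by
    rw [← hpd j]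
    exact H159.cl_pdF hf1 h1 j
  refine ⟨1 + (2 ^ M * B2 + 1) * (n * (n * (2 ^ (M + 1) * B1))), ?_, ?_⟩
  · have : 0 ≤ (2 ^ M * B2 + 1) * (n * (n * (2 ^ (M + 1) * B1))) := by positivity
    linarith
  intro Ω t q B' a ha hta
  have hK : 0 ≤ (2 ^ M * B2 + 1) * (n * (n * (2 ^ (M + 1) * B1))) * a := by positivity
  refine ⟨fun i j => H535.cl_le (hta i j) (Nat.le_succ M) (by nlinarith), ?_⟩
  have hent : ∀ i j, ContDiff ℝ ∞ (ent t i j) := fun i j =>
    Complex.ofRealCLM.contDiff.comp ((B'.sm i j).sub contDiff_const)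
  have h4 : ∀ i j, Cl (M + 1) (2 ^ (M + 1) * (a * B1)) (fun y => ent t i j y * pd j (cx φ) y) :=
    fun i j => H535.cl_mul (hent i j) (H158.contDiff_pd hf j) (hta i j) (h3 j)
  have h5 : ∀ i, Cl (M + 1) (n * (2 ^ (M + 1) * (a * B1)))
      (fun y => ∑ j, ent t i j y * pd j (cx φ) y) := by
    intro i
    have := H535.cl_sum Finset.univ (fun j => (hent i j).mul (H158.contDiff_pd hf j)) (h4 i)
    rwa [Finset.card_univ, Fintype.card_fin] at this
  have h6 : ∀ i, Cl M (n * (2 ^ (M + 1) * (a * B1)))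
      (pd i fun y => ∑ j, ent t i j y * pd j (cx φ) y) := fun i =>
    H159.cl_pdF (contDiff_fE B'.sm hf i) (h5 i) i
  have hg : ContDiff ℝ ∞ fun x => ∑ i, pd i (fun y => ∑ j, ent t i j y * pd j (cx φ) y) x :=
    ContDiff.sum fun i _ => H158.contDiff_pd (contDiff_fE B'.sm hf i) i
  have h7 : Cl M (n * (n * (2 ^ (M + 1) * (a * B1))))
      (fun x => ∑ i, pd i (fun y => ∑ j, ent t i j y * pd j (cx φ) y) x) := by
    have := H535.cl_sum Finset.univ
      (fun i => H158.contDiff_pd (contDiff_fE B'.sm hf i) i) h6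
    rwa [Finset.card_univ, Fintype.card_fin] at this
  have h8 := H535.cl_add (hi1.mul hg) hg (H535.cl_mul hi1 hg h2 h7) h7
  have e : (fun x => cx q x - cx q₀ x) = fun x => ((cx φ x)⁻¹ - 1) *
      (∑ i, pd i (fun y => ∑ j, ent t i j y * pd j (cx φ) y) x) +
      ∑ i, pd i (fun y => ∑ j, ent t i j y * pd j (cx φ) y) x := by
    funext x
    rw [← dv_diff B'.sm hf x, B'.eq x, B.eq x]
    have h0 := hφn x
    show cx q x - cx q₀ x = ((cx φ x)⁻¹ - 1) * (cx q x * cx φ x - cx q₀ x * cx φ x) +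
      (cx q x * cx φ x - cx q₀ x * cx φ x)
    field_simp
    ring
  rw [e]
  refine H535.cl_le h8 le_rfl ?_
  have : 2 ^ M * (B2 * (n * (n * (2 ^ (M + 1) * (a * B1))))) +
      n * (n * (2 ^ (M + 1) * (a * B1))) =
      (2 ^ M * B2 + 1) * (n * (n * (2 ^ (M + 1) * B1))) * a := by ring
  rw [this]
  linarith

end Vale.Agent.P088.LR.CC.H129
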