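import Vale.Agent.P088.H198.Defs

/-!
# P088, local rigidity: row CORE from rows A3 and EST
-/

open MeasureTheory Set
open scoped ContDiff Matrix

noncomputable section

namespace Vale.Agent.P088.LR

namespace H129

variable {n : ℕ}

lemma one_le_wt (k : Ix n) : 1 ≤ wt k := by
  have h : 0 ≤ ∑ j, |(k j : ℝ)| := Finset.sum_nonneg fun _ _ => abs_nonneg _
  unfold wt
  linarith

lemma smooth_ent {s : MF n} (hs : SmM s) (i j : Fin n) : ContDiff ℝ ∞ (ent s i j) := by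
  unfold ent
  exact Complex.ofRealCLM.contDiff.comp ((hs i j).sub contDiff_const)

lemma ent_off {Ω : Set (V n)} {s : MF n} (h1 : ∀ x ∉ Ω, s x = 1) (i j : Fin n) {x : V n}
    (hx : x ∉ Ω) : ent s i j x = 0 := by
  simp [ent, h1 x hx]

lemma core_eq : core n = Set.Icc (fun _ => 1 / 4) (fun _ => 3 / 4) := by
  ext x
  simp only [core, Set.mem_ofPred_eq, Set.mem_Icc, Pi.le_def]
  exact ⟨fun h => ⟨fun j => (h j).1, fun j => (h j).2⟩, fun h j => ⟨h.1 j, h.2 j⟩⟩

lemma isCompact_core : IsCompact (core n) := by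
  rw [core_eq]
  exact isCompact_Icc

lemma core_subset_cube : core n ⊆ cube n := by
  intro x hx j
  have h := hx j
  constructor <;> linarith [h.1, h.2]

lemma tsupport_ent {Ω : Set (V n)} {s : MF n} (hΩ : Ω ⊆ core n) (h1 : ∀ x ∉ Ω, s x = 1)
    (i j : Fin n) : tsupport (ent s i j) ⊆ core n := by
  refine closure_minimal ?_ isCompact_core.isClosed
  intro x hx
  by_contra hc
  exact hx (ent_off h1 i j fun h => hc (hΩ h))

lemma norm_ex (ξ x : V n) : ‖ex ξ x‖ = 1 := by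
  unfold ex
  have h : (2 * Real.pi * Complex.I * ((∑ j, ξ j * x j : ℝ) : ℂ) : ℂ)
      = ((2 * Real.pi * ∑ j, ξ j * x j : ℝ) : ℂ) * Complex.I := by
    push_cast
    ring
  rw [h]
  exact Complex.norm_exp_ofReal_mul_I _

lemma continuous_ex (x : V n) : Continuous fun ξ : V n => ex (-ξ) x := by
  unfold ex
  fun_prop

lemma continuous_ex' (ξ : V n) : Continuous fun x : V n => ex ξ x := by
  unfold ex
  fun_prop

lemma continuous_ft {f : V n → ℂ} (hf : Continuous f) (hc : HasCompactSupport f) :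
    Continuous (ft f) := by
  unfold ft
  refine continuous_of_dominated (bound := fun x => ‖f x‖) ?_ ?_ ?_ ?_
  · intro ξ
    exact (hf.mul (continuous_ex' (-ξ))).aestronglyMeasurable
  · intro ξ
    refine Filter.Eventually.of_forall fun x => ?_
    rw [norm_mul, norm_ex, mul_one]
  · exact (hf.integrable_of_hasCompactSupport hc).norm
  · refine Filter.Eventually.of_forall fun x => ?_
    exact continuous_const.mul (continuous_ex x)

/-- The mean of a divergence free tensor vanishes. -/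
lemma ft_zero {s : MF n} (hs : SmM s) {Ω : Set (V n)} (hΩ : Ω ⊆ core n)
    (h1 : ∀ x ∉ Ω, s x = 1) (hd : ∀ (ξ : V n) j, ∑ i, (ξ i : ℂ) * ft (ent s i j) ξ = 0)
    (i j : Fin n) : ft (ent s i j) 0 = 0 := by
  have hcont : Continuous (ft (ent s i j)) :=
    continuous_ft (smooth_ent hs i j).continuous
      (HasCompactSupport.of_support_subset_isCompact isCompact_core
        ((subset_tsupport _).trans (tsupport_ent hΩ h1 i j)))
  have hg : Continuous fun t : ℝ => ft (ent s i j) (Pi.single i t) :=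
    hcont.comp (continuous_pi fun l => by
      rcases eq_or_ne l i with h | h
      · subst h
        simp only [Pi.single_eq_same]
        exact continuous_id
      · simpa [Pi.single_eq_of_ne h] using continuous_const)
  have hz : ∀ t ∈ ({0}ᶜ : Set ℝ), ft (ent s i j) (Pi.single i t) = (fun _ => (0 : ℂ)) t := by
    intro t ht
    have ht' : t ≠ 0 := ht
    have h := hd (Pi.single i t) j
    rw [Finset.sum_eq_single i] at h
    · rw [Pi.single_eq_same] at h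
      rcases mul_eq_zero.1 h with h | h
      · exact absurd (Complex.ofReal_eq_zero.1 h) ht'
      · exact h
    · intro b _ hb
      rw [Pi.single_eq_of_ne hb]
      simp
    · intro h
      exact absurd (Finset.mem_univ i) h
  have h := Continuous.ext_on (dense_compl_singleton (0 : ℝ)) hg continuous_const hz
  have h0 := congrFun h 0
  simpa using h0

/-- `∑ |q_j|`. -/
def L1 (q : Ix n) : ℝ := ∑ j, |(q j : ℝ)|

lemma L1_nonneg (q : Ix n) : 0 ≤ L1 q := Finset.sum_nonneg fun _ _ => abs_nonneg _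

lemma wt_eq (q : Ix n) : wt q = 1 + L1 q := rfl

lemma L1_add (q r : Ix n) : L1 (q + r) ≤ L1 q + L1 r := by
  unfold L1
  rw [← Finset.sum_add_distrib]
  refine Finset.sum_le_sum fun j _ => ?_
  rw [Pi.add_apply, Int.cast_add]
  exact abs_add_le _ _

lemma L1_sub (q r : Ix n) : L1 (q - r) ≤ L1 q + L1 r := by
  unfold L1
  rw [← Finset.sum_add_distrib]
  refine Finset.sum_le_sum fun j _ => ?_
  rw [Pi.sub_apply, Int.cast_sub]
  exact abs_sub _ _

/-- The bilinear form. -/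
def bf (H : Fin n → Fin n → ℂ) (q r : Ix n) : ℂ := ∑ i, ∑ j, (q i : ℂ) * r j * H i j

lemma bf_polar (H : Fin n → Fin n → ℂ) (hs : ∀ i j, H i j = H j i) (q r : Ix n) :
    4 * bf H q r = bf H (q + r) (q + r) - bf H (q - r) (q - r) := by
  have hsym : bf H r q = bf H q r := by
    unfold bf
    rw [Finset.sum_comm]
    refine Finset.sum_congr rfl fun i _ => Finset.sum_congr rfl fun j _ => ?_
    rw [hs j i]
    ring
  have h1 : bf H (q + r) (q + r) = bf H q q + bf H q r + bf H r q + bf H r r := by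
    unfold bf
    simp only [← Finset.sum_add_distrib]
    refine Finset.sum_congr rfl fun i _ => Finset.sum_congr rfl fun j _ => ?_
    simp only [Pi.add_apply, Int.cast_add]
    ring
  have h2 : bf H (q - r) (q - r) = bf H q q - bf H q r - bf H r q + bf H r r := by
    unfold bf
    simp only [← Finset.sum_add_distrib, ← Finset.sum_sub_distrib]
    refine Finset.sum_congr rfl fun i _ => Finset.sum_congr rfl fun j _ => ?_
    simp only [Pi.sub_apply, Int.cast_sub]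
    ring
  rw [h1, h2, hsym]
  ring

/-- `|ξ|² e_a - ξ_a ξ`. -/
def pv (ξ : Ix n) (a : Fin n) : Ix n := fun l => (∑ j, ξ j * ξ j) * (if l = a then 1 else 0) - ξ a * ξ l

lemma pv_orth (ξ : Ix n) (a : Fin n) : ∑ j, pv ξ a j * ξ j = 0 := by
  have h : ∀ j, pv ξ a j * ξ j
      = (∑ l, ξ l * ξ l) * (if j = a then ξ j else 0) - ξ a * (ξ j * ξ j) := by
    intro j
    unfold pv
    split_ifs <;> ring
  simp only [h, Finset.sum_sub_distrib, ← Finset.mul_sum, Finset.sum_ite_eq', Finset.mem_univ,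
    if_true]
  ring

lemma sq_le_L1 (ξ : Ix n) : ((∑ j, ξ j * ξ j : ℤ) : ℝ) ≤ L1 ξ ^ 2 := by
  push_cast
  have h : ∀ j, (ξ j : ℝ) * ξ j ≤ |(ξ j : ℝ)| * L1 ξ := by
    intro j
    have h1 : |(ξ j : ℝ)| ≤ L1 ξ :=
      Finset.single_le_sum (f := fun j => |(ξ j : ℝ)|) (fun _ _ => abs_nonneg _)
        (Finset.mem_univ j)
    calc (ξ j : ℝ) * ξ j = |(ξ j : ℝ)| * |(ξ j : ℝ)| := (abs_mul_abs_self _).symm
      _ ≤ |(ξ j : ℝ)| * L1 ξ := mul_le_mul_of_nonneg_left h1 (abs_nonneg _)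
  calc ∑ j, (ξ j : ℝ) * ξ j ≤ ∑ j, |(ξ j : ℝ)| * L1 ξ := Finset.sum_le_sum fun j _ => h j
    _ = L1 ξ ^ 2 := by rw [← Finset.sum_mul, sq]; rfl

lemma L1_pv (ξ : Ix n) (a : Fin n) : L1 (pv ξ a) ≤ 2 * L1 ξ ^ 2 := by
  have hN : (0 : ℝ) ≤ ((∑ j, ξ j * ξ j : ℤ) : ℝ) := by
    exact_mod_cast Finset.sum_nonneg fun j _ => mul_self_nonneg (ξ j)
  have h : ∀ l, |((pv ξ a l : ℤ) : ℝ)|
      ≤ (if l = a then ((∑ j, ξ j * ξ j : ℤ) : ℝ) else 0) + |(ξ a : ℝ)| * |(ξ l : ℝ)| := by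
    intro l
    unfold pv
    rw [Int.cast_sub, Int.cast_mul, Int.cast_mul, ← abs_mul]
    refine (abs_sub _ _).trans (add_le_add_left ?_ _)
    split_ifs
    · rw [Int.cast_one, mul_one, abs_of_nonneg hN]
    · rw [Int.cast_zero, mul_zero, abs_zero]
  calc L1 (pv ξ a) ≤ ∑ l, ((if l = a then ((∑ j, ξ j * ξ j : ℤ) : ℝ) else 0)
        + |(ξ a : ℝ)| * |(ξ l : ℝ)|) := Finset.sum_le_sum fun l _ => h l
    _ = ((∑ j, ξ j * ξ j : ℤ) : ℝ) + |(ξ a : ℝ)| * L1 ξ := by
        rw [Finset.sum_add_distrib, Finset.sum_ite_eq' Finset.univ a, ← Finset.mul_sum]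
        simp [L1]
    _ ≤ L1 ξ ^ 2 + L1 ξ * L1 ξ := by
        have h1 : |(ξ a : ℝ)| ≤ L1 ξ :=
          Finset.single_le_sum (f := fun j => |(ξ j : ℝ)|) (fun _ _ => abs_nonneg _)
            (Finset.mem_univ a)
        exact add_le_add (sq_le_L1 ξ) (mul_le_mul_of_nonneg_right h1 (L1_nonneg ξ))
    _ = 2 * L1 ξ ^ 2 := by ring

lemma bf_pv (ξ : Ix n) (H : Fin n → Fin n → ℂ) (hs : ∀ i j, H i j = H j i)
    (hd : ∀ j, ∑ i, (ξ i : ℂ) * H i j = 0) (a b : Fin n) :
    bf H (pv ξ a) (pv ξ b) = ((∑ j, ξ j * ξ j : ℤ) : ℂ) ^ 2 * H a b := by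
  set N : ℂ := ((∑ j, ξ j * ξ j : ℤ) : ℂ) with hN
  have hd' : ∀ i, ∑ j, (ξ j : ℂ) * H i j = 0 := by
    intro i
    rw [← hd i]
    exact Finset.sum_congr rfl fun j _ => by rw [hs i j]
  have h1 : ∀ i, ∑ j, ((pv ξ b j : ℤ) : ℂ) * H i j = N * H i b := by
    intro i
    have h : ∀ j, ((pv ξ b j : ℤ) : ℂ) * H i j
        = (if j = b then N * H i j else 0) - ξ b * ((ξ j : ℂ) * H i j) := by
      intro j
      unfold pv
      rw [Int.cast_sub, Int.cast_mul, Int.cast_mul, ← hN]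
      split_ifs
      · push_cast
        ring
      · push_cast
        ring
    simp only [h, Finset.sum_sub_distrib, ← Finset.mul_sum, hd', Finset.sum_ite_eq',
      Finset.mem_univ, if_true]
    ring
  have h2 : ∑ i, ((pv ξ a i : ℤ) : ℂ) * H i b = N * H a b := by
    have h : ∀ i, ((pv ξ a i : ℤ) : ℂ) * H i b
        = (if i = a then N * H i b else 0) - ξ a * ((ξ i : ℂ) * H i b) := by
      intro i
      unfold pv
      rw [Int.cast_sub, Int.cast_mul, Int.cast_mul, ← hN]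
      split_ifs
      · push_cast
        ring
      · push_cast
        ring
    simp only [h, Finset.sum_sub_distrib, ← Finset.mul_sum, hd b, Finset.sum_ite_eq',
      Finset.mem_univ, if_true]
    ring
  calc bf H (pv ξ a) (pv ξ b)
      = ∑ i, ((pv ξ a i : ℤ) : ℂ) * ∑ j, ((pv ξ b j : ℤ) : ℂ) * H i j := by
        unfold bf
        refine Finset.sum_congr rfl fun i _ => ?_
        rw [Finset.mul_sum]
        exact Finset.sum_congr rfl fun j _ => by ring
    _ = ∑ i, N * (((pv ξ a i : ℤ) : ℂ) * H i b) := by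
        refine Finset.sum_congr rfl fun i _ => ?_
        rw [h1 i]
        ring
    _ = N ^ 2 * H a b := by
        rw [← Finset.mul_sum, h2]
        ring

lemma key_alg (ξ : Ix n) (hξ : ξ ≠ 0) (H : Fin n → Fin n → ℂ) (hs : ∀ i j, H i j = H j i)
    (hd : ∀ j, ∑ i, (ξ i : ℂ) * H i j = 0) {B : ℝ}
    (hB : ∀ q : Ix n, ∑ j, q j * ξ j = 0 → wt q ≤ 4 * wt ξ ^ 2 →
      ‖∑ i, ∑ j, (q i : ℂ) * q j * H i j‖ ≤ B) (a b : Fin n) : ‖H a b‖ ≤ B := by
  have hL := L1_nonneg ξ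
  have horth : ∀ c, ∑ j, pv ξ c j * ξ j = 0 := pv_orth ξ
  have e1 : ‖bf H (pv ξ a + pv ξ b) (pv ξ a + pv ξ b)‖ ≤ B := by
    refine hB _ ?_ ?_
    · simp only [Pi.add_apply, add_mul, Finset.sum_add_distrib, horth, add_zero]
    · rw [wt_eq, wt_eq]
      nlinarith [L1_add (pv ξ a) (pv ξ b), L1_pv ξ a, L1_pv ξ b]
  have e2 : ‖bf H (pv ξ a - pv ξ b) (pv ξ a - pv ξ b)‖ ≤ B := by
    refine hB _ ?_ ?_
    · simp only [Pi.sub_apply, sub_mul, Finset.sum_sub_distrib, horth, sub_zero]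
    · rw [wt_eq, wt_eq]
      nlinarith [L1_sub (pv ξ a) (pv ξ b), L1_pv ξ a, L1_pv ξ b]
  have h4 := bf_polar H hs (pv ξ a) (pv ξ b)
  rw [bf_pv ξ H hs hd a b] at h4
  have hN : (1 : ℝ) ≤ ((∑ j, ξ j * ξ j : ℤ) : ℝ) := by
    have h : (1 : ℤ) ≤ ∑ j, ξ j * ξ j := by
      obtain ⟨j, hj⟩ := Function.ne_iff.1 hξ
      have h1 : 0 < ξ j * ξ j := by
        have hj' : ξ j ≠ 0 := hj
        exact mul_self_pos.2 hj'
      have h2 : ξ j * ξ j ≤ ∑ j, ξ j * ξ j :=
        Finset.single_le_sum (f := fun j => ξ j * ξ j) (fun i _ => mul_self_nonneg (ξ i))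
          (Finset.mem_univ j)
      omega
    exact_mod_cast h
  have h5 : 4 * (((∑ j, ξ j * ξ j : ℤ) : ℝ) ^ 2 * ‖H a b‖) ≤ B + B := by
    have h6 : ‖(4 : ℂ) * (((∑ j, ξ j * ξ j : ℤ) : ℂ) ^ 2 * H a b)‖
        = 4 * (((∑ j, ξ j * ξ j : ℤ) : ℝ) ^ 2 * ‖H a b‖) := by
      rw [norm_mul, norm_mul, norm_pow, Complex.norm_intCast, abs_of_nonneg (by linarith)]
      norm_num
    rw [← h6, h4]
    exact (norm_sub_le _ _).trans (add_le_add e1 e2)
  have h7 : ‖H a b‖ ≤ ((∑ j, ξ j * ξ j : ℤ) : ℝ) ^ 2 * ‖H a b‖ :=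
    le_mul_of_one_le_left (norm_nonneg _) (one_le_pow₀ hN)
  have h8 := norm_nonneg (H a b)
  linarith

/-- Splitting of the `ℓ¹` norm at the level `t`. -/
lemma nm0_le (c : Ix n → ℂ) (hc : RD c) (m t : ℕ) (ht : 1 ≤ t) {B : ℝ}
    (h : ∀ k : Ix n, wt k ≤ (n + 1) * t → ‖c k‖ ≤ B) :
    nm 0 c ≤ (2 * t) ^ n * B + ((t : ℝ) ^ m)⁻¹ * nm m c := by
  classical
  have ht' : (1 : ℝ) ≤ t := by exact_mod_cast ht
  have hB : 0 ≤ B := by
    refine (norm_nonneg (c 0)).trans (h 0 ?_)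
    have h0 : wt (0 : Ix n) = 1 := by simp [wt]
    rw [h0]
    have hn : (0 : ℝ) ≤ n := Nat.cast_nonneg n
    nlinarith
  set F : Finset (Ix n) := Fintype.piFinset fun _ : Fin n => Finset.Ioo (-(t : ℤ)) t with hF
  have hcard : (F.card : ℝ) ≤ (2 * t) ^ n := by
    rw [hF, Fintype.card_piFinset]
    simp only [Int.card_Ioo, Finset.prod_const, Finset.card_univ, Fintype.card_fin]
    push_cast
    refine pow_le_pow_left₀ (Nat.cast_nonneg _) ?_ n
    have h1 : ((t : ℤ) - -(t : ℤ) - 1).toNat ≤ 2 * t := by omega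
    exact_mod_cast h1
  have hin : ∀ k ∈ F, ‖c k‖ ≤ B := by
    intro k hk
    refine h k ?_
    have h1 : ∀ j, |(k j : ℝ)| ≤ t := by
      intro j
      have h2 := (Fintype.mem_piFinset.1 hk) j
      rw [Finset.mem_Ioo] at h2
      have h3 : |k j| ≤ (t : ℤ) := abs_le.2 ⟨h2.1.le, h2.2.le⟩
      exact_mod_cast h3
    have h2 : ∑ j, |(k j : ℝ)| ≤ n * t := by
      calc ∑ j, |(k j : ℝ)| ≤ ∑ _j : Fin n, (t : ℝ) := Finset.sum_le_sum fun j _ => h1 j
        _ = n * t := by simp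
    unfold wt
    linarith
  have hout : ∀ k, k ∉ F → (t : ℝ) ≤ wt k := by
    intro k hk
    rw [hF, Fintype.mem_piFinset] at hk
    push Not at hk
    obtain ⟨j, hj⟩ := hk
    have h1 : (t : ℤ) ≤ |k j| := by
      by_contra hcon
      push Not at hcon
      exact hj (Finset.mem_Ioo.2 (abs_lt.1 hcon))
    have h2 : (t : ℝ) ≤ |(k j : ℝ)| := by exact_mod_cast h1
    have h3 : |(k j : ℝ)| ≤ ∑ j, |(k j : ℝ)| :=
      Finset.single_le_sum (f := fun j => |(k j : ℝ)|) (fun _ _ => abs_nonneg _)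
        (Finset.mem_univ j)
    unfold wt
    linarith
  have hpt : ∀ k, wt k ^ 0 * ‖c k‖
      ≤ (if k ∈ F then ‖c k‖ else 0) + ((t : ℝ) ^ m)⁻¹ * (wt k ^ m * ‖c k‖) := by
    intro k
    rw [pow_zero, one_mul]
    have h0 : 0 ≤ ((t : ℝ) ^ m)⁻¹ * (wt k ^ m * ‖c k‖) := by
      have := one_le_wt k
      positivity
    split_ifs with hk
    · linarith
    · have h1 : (t : ℝ) ^ m ≤ wt k ^ m := pow_le_pow_left₀ (by positivity) (hout k hk) m
      have h2 : 1 ≤ ((t : ℝ) ^ m)⁻¹ * wt k ^ m := by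
        rw [inv_mul_eq_div, one_le_div (by positivity)]
        exact h1
      have h3 : 1 * ‖c k‖ ≤ ((t : ℝ) ^ m)⁻¹ * wt k ^ m * ‖c k‖ :=
        mul_le_mul_of_nonneg_right h2 (norm_nonneg _)
      rw [← mul_assoc]
      linarith
  have hs1 : Summable fun k => if k ∈ F then ‖c k‖ else 0 :=
    summable_of_ne_finset_zero (s := F) fun k hk => if_neg hk
  have hs2 : Summable fun k => ((t : ℝ) ^ m)⁻¹ * (wt k ^ m * ‖c k‖) := (hc m).mul_left _
  have hsum : ∑' k, (if k ∈ F then ‖c k‖ else 0) = ∑ k ∈ F, ‖c k‖ := by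
    rw [tsum_eq_sum (s := F) fun k hk => if_neg hk]
    exact Finset.sum_congr rfl fun k hk => if_pos hk
  calc nm 0 c ≤ ∑' k, ((if k ∈ F then ‖c k‖ else 0) + ((t : ℝ) ^ m)⁻¹ * (wt k ^ m * ‖c k‖)) :=
        (hc 0).tsum_le_tsum hpt (hs1.add hs2)
    _ = ∑ k ∈ F, ‖c k‖ + ((t : ℝ) ^ m)⁻¹ * nm m c := by
        rw [hs1.tsum_add hs2, hsum, tsum_mul_left]
        rfl
    _ ≤ (2 * t) ^ n * B + ((t : ℝ) ^ m)⁻¹ * nm m c := by
        refine add_le_add_left ?_ _
        calc ∑ k ∈ F, ‖c k‖ ≤ ∑ _k ∈ F, B := Finset.sum_le_sum hin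
          _ = F.card * B := by rw [Finset.sum_const, nsmul_eq_mul]
          _ ≤ (2 * t) ^ n * B := mul_le_mul_of_nonneg_right hcard hB

lemma nm0_le_nm (c : Ix n → ℂ) (hc : RD c) (m : ℕ) : nm 0 c ≤ nm m c := by
  refine (hc 0).tsum_le_tsum (fun k => ?_) (hc m)
  refine mul_le_mul_of_nonneg_right ?_ (norm_nonneg _)
  rw [pow_zero]
  exact one_le_pow₀ (one_le_wt k)

lemma nm_nonneg (m : ℕ) (c : Ix n → ℂ) : 0 ≤ nm m c :=
  tsum_nonneg fun k => mul_nonneg (pow_nonneg (zero_le_one.trans (one_le_wt k)) _) (norm_nonneg _)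

lemma eq_zero_of_nm0 (c : Ix n → ℂ) (hc : RD c) (h : nm 0 c ≤ 0) (k : Ix n) : c k = 0 := by
  have h0 : ∀ k, 0 ≤ wt k ^ 0 * ‖c k‖ := fun k => by positivity
  have h1 : wt k ^ 0 * ‖c k‖ ≤ nm 0 c := (hc 0).le_tsum k fun j _ => h0 j
  rw [pow_zero, one_mul] at h1
  exact norm_le_zero_iff.1 (h1.trans h)

/-- The absorption step. -/
lemma absorb {P : ℕ} (hP : P ≠ 0) {C a e : ℝ} (hC : 0 < C) (ha : 0 ≤ a)
    (he : e * (2 ^ (P + 3) * C) ≤ 1) (hae : a ≤ e)
    (h : ∀ t : ℕ, 1 ≤ t → C * (t : ℝ) ^ P * a ≤ 1 / 2 →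
      a ≤ C * (t : ℝ) ^ P * a ^ 2 + ((t : ℝ) ^ P)⁻¹ * e) : a ≤ 0 := by
  by_contra hcon
  push Not at hcon
  have hex : ∃ t : ℕ, 1 / 2 < C * ((t : ℝ) + 1) ^ P * a := by
    obtain ⟨t, ht⟩ := exists_nat_gt (1 / 2 / (C * a))
    refine ⟨t, ?_⟩
    have h1 : (t : ℝ) + 1 ≤ ((t : ℝ) + 1) ^ P :=
      le_self_pow₀ (by linarith [(Nat.cast_nonneg t : (0 : ℝ) ≤ t)]) hP
    have h2 : 0 < C * a := mul_pos hC hcon
    rw [div_lt_iff₀ h2] at ht
    have h3 : (t : ℝ) * (C * a) ≤ ((t : ℝ) + 1) ^ P * (C * a) :=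
      mul_le_mul_of_nonneg_right (by linarith) h2.le
    calc 1 / 2 < (t : ℝ) * (C * a) := ht
      _ ≤ ((t : ℝ) + 1) ^ P * (C * a) := h3
      _ = C * ((t : ℝ) + 1) ^ P * a := by ring
  classical
  set t := Nat.find hex with htdef
  have ht1 : 1 / 2 < C * ((t : ℝ) + 1) ^ P * a := Nat.find_spec hex
  have h2P : (1 : ℝ) ≤ 2 ^ P := one_le_pow₀ (by norm_num)
  have hsmall : C * a ≤ 1 / 8 := by
    have h1 : C * a ≤ C * e := mul_le_mul_of_nonneg_left hae hC.le
    have h2 : 0 ≤ C * e := (mul_nonneg hC.le ha).trans h1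
    have h3 : 8 * (C * e) ≤ 2 ^ P * (8 * (C * e)) :=
      le_mul_of_one_le_left (by linarith) h2P
    have h4 : 2 ^ P * (8 * (C * e)) = e * (2 ^ (P + 3) * C) := by ring
    linarith
  have ht0 : t ≠ 0 := by
    intro h0
    rw [h0] at ht1
    norm_num at ht1
    linarith
  obtain ⟨u, hu⟩ := Nat.exists_eq_succ_of_ne_zero ht0
  have hle : C * (t : ℝ) ^ P * a ≤ 1 / 2 := by
    have h1 : ¬ (1 / 2 < C * ((u : ℝ) + 1) ^ P * a) := Nat.find_min hex (by omega)
    push Not at h1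
    rw [hu]
    push_cast
    exact h1
  have htpos : (1 : ℝ) ≤ t := by
    have : 1 ≤ t := by omega
    exact_mod_cast this
  have hmain := h t (by omega) hle
  have hpow : ((t : ℝ) + 1) ^ P ≤ 2 ^ P * (t : ℝ) ^ P := by
    rw [← mul_pow]
    exact pow_le_pow_left₀ (by linarith) (by linarith) P
  have htP : 0 < (t : ℝ) ^ P := by positivity
  have h3 : ((t : ℝ) ^ P)⁻¹ * e ≤ a / 4 := by
    rw [inv_mul_le_iff₀ htP]
    have h5 : C * ((t : ℝ) + 1) ^ P * a ≤ C * (2 ^ P * (t : ℝ) ^ P) * a :=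
      mul_le_mul_of_nonneg_right (mul_le_mul_of_nonneg_left hpow hC.le) ha
    have h6 : 1 ≤ 2 * (C * (2 ^ P * (t : ℝ) ^ P) * a) := by linarith
    have hD : 0 < 2 ^ (P + 3) * C := by positivity
    have h7 : e ≤ 1 / (2 ^ (P + 3) * C) := by
      rw [le_div_iff₀ hD]
      exact he
    refine h7.trans ?_
    rw [div_le_iff₀ hD]
    calc (1 : ℝ) ≤ 2 * (C * (2 ^ P * (t : ℝ) ^ P) * a) := h6
      _ = (t : ℝ) ^ P * (a / 4) * (2 ^ (P + 3) * C) := by ring
  have h4 : C * (t : ℝ) ^ P * a ^ 2 ≤ a / 2 := by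
    calc C * (t : ℝ) ^ P * a ^ 2 = (C * (t : ℝ) ^ P * a) * a := by ring
      _ ≤ 1 / 2 * a := mul_le_mul_of_nonneg_right hle ha
      _ = a / 2 := by ring
  linarith

end H129

open H129 in
/-- Row CORE from rows A3 and EST. -/
theorem core_row (hA3 : RowA3) (hEST : RowEST) : RowCORE := by
  intro n
  obtain ⟨C, hC0, hC⟩ := hEST n
  rcases Nat.eq_zero_or_pos n with h0 | hn
  · subst h0
    exact ⟨0, 1, one_pos, fun Ω _ _ s _ _ _ _ _ _ x => by ext i; exact i.elim0⟩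
  have hn1 : (1 : ℝ) ≤ n := by exact_mod_cast hn
  set D : ℝ := (n : ℝ) ^ 2 * (2 ^ n * (C * ((n : ℝ) + 1) ^ 16)) with hD
  have hDpos : 0 < D := by positivity
  have hn2 : (0 : ℝ) < (n : ℝ) ^ 2 := by positivity
  refine ⟨n + 16, 1 / ((n : ℝ) ^ 2 * (2 ^ (n + 16 + 3) * D)), by positivity, ?_⟩
  set ε : ℝ := 1 / ((n : ℝ) ^ 2 * (2 ^ (n + 16 + 3) * D)) with hε
  intro Ω hΩo hΩ s hs hsym h1 hd hstar hnm
  have hsup : ∀ i j, tsupport (ent s i j) ⊆ cube n := fun i j =>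
    (tsupport_ent hΩ h1 i j).trans core_subset_cube
  have hA : ∀ i j, RD (cf 0 (ent s i j)) ∧ ∀ x ∈ cube n, ent s i j x = Es 0 (cf 0 (ent s i j)) x := by
    intro i j
    obtain ⟨C0, -, hC0'⟩ := hA3 n 0
    obtain ⟨h2, h3, -⟩ := hC0' (ent s i j) (smooth_ent hs i j) (hsup i j) 0 (by simp)
    exact ⟨h2, h3⟩
  set a : ℝ := ∑ i, ∑ j, nm 0 (cf 0 (ent s i j)) with ha
  have ha0 : 0 ≤ a := Finset.sum_nonneg fun i _ => Finset.sum_nonneg fun j _ => nm_nonneg _ _
  have hae : a ≤ (n : ℝ) ^ 2 * ε := by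
    calc a ≤ ∑ _i : Fin n, ∑ _j : Fin n, ε := Finset.sum_le_sum fun i _ =>
          Finset.sum_le_sum fun j _ => (nm0_le_nm _ (hA i j).1 (n + 16)).trans (hnm i j)
      _ = (n : ℝ) ^ 2 * ε := by
          simp only [Finset.sum_const, Finset.card_univ, Fintype.card_fin, nsmul_eq_mul]
          ring
  have hentsym : ∀ i j, ent s i j = ent s j i := by
    intro i j
    funext x
    have h2 : s x i j = s x j i := (hsym x).apply j i
    have h3 : (1 : Matrix (Fin n) (Fin n) ℝ) i j = (1 : Matrix (Fin n) (Fin n) ℝ) j i := by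
      rw [Matrix.one_apply, Matrix.one_apply]
      simp only [eq_comm]
    unfold ent
    rw [h2, h3]
  have ha00 : a ≤ 0 := by
    refine absorb (P := n + 16) (by omega) hDpos ha0 ?_ hae ?_
    · rw [hε]
      have hne : (n : ℝ) ^ 2 * (2 ^ (n + 16 + 3) * D) ≠ 0 := by positivity
      rw [mul_one_div, div_mul_eq_mul_div, div_self hne]
    intro t ht hta
    have ht' : (1 : ℝ) ≤ t := by exact_mod_cast ht
    have hcond : C * (((n : ℝ) + 1) * t) ^ 8 * a ≤ 1 := by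
      have h8 : (((n : ℝ) + 1) * t) ^ 8 ≤ (((n : ℝ) + 1) * t) ^ 16 :=
        pow_le_pow_right₀ (by nlinarith) (by norm_num)
      have h9 : (t : ℝ) ^ 16 ≤ (t : ℝ) ^ (n + 16) := pow_le_pow_right₀ ht' (by omega)
      have h10 : (1 : ℝ) ≤ (n : ℝ) ^ 2 * 2 ^ n :=
        one_le_mul_of_one_le_of_one_le (one_le_pow₀ hn1) (one_le_pow₀ (by norm_num))
      calc C * (((n : ℝ) + 1) * t) ^ 8 * a ≤ C * (((n : ℝ) + 1) * t) ^ 16 * a :=
            mul_le_mul_of_nonneg_right (mul_le_mul_of_nonneg_left h8 hC0.le) ha0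
        _ = C * ((n : ℝ) + 1) ^ 16 * (t : ℝ) ^ 16 * a := by rw [mul_pow]; ring
        _ ≤ C * ((n : ℝ) + 1) ^ 16 * (t : ℝ) ^ (n + 16) * a :=
            mul_le_mul_of_nonneg_right (mul_le_mul_of_nonneg_left h9 (by positivity)) ha0
        _ ≤ (n : ℝ) ^ 2 * 2 ^ n * (C * ((n : ℝ) + 1) ^ 16 * (t : ℝ) ^ (n + 16) * a) :=
            le_mul_of_one_le_left (by positivity) h10
        _ = D * (t : ℝ) ^ (n + 16) * a := by rw [hD]; ring
        _ ≤ 1 := by linarith
    set B : ℝ := C * (((n : ℝ) + 1) * t) ^ 16 * a ^ 2 with hB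
    have hB0 : 0 ≤ B := by positivity
    have hbound : ∀ i j (k : Ix n), wt k ≤ ((n : ℝ) + 1) * t → ‖cf 0 (ent s i j) k‖ ≤ B := by
      intro i j k hk
      rcases eq_or_ne k 0 with hk0 | hk0
      · have h2 : cf 0 (ent s i j) k = 0 := by
          unfold cf
          have h3 : fr 0 k = (0 : V n) := by
            funext l
            simp [fr, hk0]
          rw [h3]
          exact ft_zero hs hΩ h1 hd i j
        rw [h2, norm_zero]
        exact hB0
      · have hwt0 : (0 : ℝ) ≤ wt k := zero_le_one.trans (one_le_wt k)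
        refine key_alg k hk0 (fun i j => cf 0 (ent s i j) k) (fun i j => ?_) (fun j => ?_) ?_ i j
        · simp only [hentsym i j]
        · have h2 := hd (fr 0 k) j
          have h3 : ∀ i, ((fr 0 k i : ℝ) : ℂ) = (k i : ℂ) := by
            intro i
            simp [fr]
          simp only [h3] at h2
          exact h2
        · intro q hq hwq
          have hc8 : C * wt k ^ 8 * a ≤ 1 := by
            refine le_trans ?_ hcond
            exact mul_le_mul_of_nonneg_right (mul_le_mul_of_nonneg_left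
              (pow_le_pow_left₀ hwt0 hk 8) hC0.le) ha0
          refine (hC Ω hΩo hΩ s hs hsym h1 hd hstar a ha k q hk0 hq hwq hc8).trans ?_
          exact mul_le_mul_of_nonneg_right (mul_le_mul_of_nonneg_left
            (pow_le_pow_left₀ hwt0 hk 16) hC0.le) (by positivity)
    calc a ≤ ∑ _i : Fin n, ∑ _j : Fin n, ((2 * (t : ℝ)) ^ n * B + ((t : ℝ) ^ (n + 16))⁻¹ * ε) := by
          refine Finset.sum_le_sum fun i _ => Finset.sum_le_sum fun j _ => ?_
          refine (nm0_le _ (hA i j).1 (n + 16) t ht (hbound i j)).trans ?_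
          exact add_le_add_right (mul_le_mul_of_nonneg_left (hnm i j) (by positivity)) _
      _ = D * (t : ℝ) ^ (n + 16) * a ^ 2 + ((t : ℝ) ^ (n + 16))⁻¹ * ((n : ℝ) ^ 2 * ε) := by
          simp only [Finset.sum_const, Finset.card_univ, Fintype.card_fin, nsmul_eq_mul]
          rw [hB, hD, mul_pow, mul_pow, pow_add]
          ring
  have hcz : ∀ i j k, cf 0 (ent s i j) k = 0 := by
    intro i j k
    refine eq_zero_of_nm0 _ (hA i j).1 ?_ k
    have h2 : nm 0 (cf 0 (ent s i j)) ≤ a := by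
      refine le_trans ?_ (Finset.single_le_sum (f := fun i => ∑ j, nm 0 (cf 0 (ent s i j)))
        (fun i _ => Finset.sum_nonneg fun j _ => nm_nonneg _ _) (Finset.mem_univ i))
      exact Finset.single_le_sum (f := fun j => nm 0 (cf 0 (ent s i j)))
        (fun j _ => nm_nonneg _ _) (Finset.mem_univ j)
    linarith
  intro x
  by_cases hx : x ∈ Ω
  · ext i j
    have h2 := (hA i j).2 x (core_subset_cube (hΩ hx))
    have h3 : Es 0 (cf 0 (ent s i j)) x = 0 := by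
      unfold Es
      simp [hcz i j]
    rw [h3] at h2
    have h4 : s x i j - (1 : Matrix (Fin n) (Fin n) ℝ) i j = 0 := Complex.ofReal_eq_zero.1 h2
    linarith
  · exact h1 x hx

end Vale.Agent.P088.LR
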