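import Vale.Agent.P088.H833.D.Defs
import Vale.Agent.P088.H129.CBa

/-!
# P088, theorem D, row D_BA: supports of `q₀`, `q` and `q - q₀`
-/

open MeasureTheory Set
open scoped ContDiff Matrix

noncomputable section

namespace Vale.Agent.P088.LR.CD.H129

open Vale.Agent.P088.LR Vale.Agent.P088.LR.CF Vale.Agent.P088.LR.CC Vale.Agent.P088.LR.CD

variable {n : ℕ}

/-- derivatives vanish off a regular open set -/
theorem pd_off {F : Type*} [NormedAddCommGroup F] [NormedSpace ℝ F] {Ω : Set (V n)}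
    (hi : interior (closure Ω) = Ω) {G : V n → F} (hG : ContDiff ℝ ∞ G) (h0 : ∀ x ∉ Ω, G x = 0)
    (i : Fin n) {x : V n} (hx : x ∉ Ω) : pd i G x = 0 := by
  unfold pd
  rw [H158.fderiv_zero_off hi hG h0 hx]
  rfl

theorem q_off {Ω : Set (V n)} {φ q₀ φ₂ : V n → ℝ} {t : MF n} {q : V n → ℝ}
    (B : B2 Ω φ q₀ φ₂ t q) {x : V n} (hx : x ∉ Ω) : q x = q₀ x := by
  have hf : ContDiff ℝ ∞ (cx φ) := CC.H129.contDiff_cx B.ba.p.1
  have hf2 : ContDiff ℝ ∞ (cx φ₂) := CC.H129.contDiff_cx B.p₂.1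
  have h1 := CC.H129.dv_diff B.sm hf2 x
  have h2 : ∑ i, pd i (fun y => ∑ j, ent t i j y * pd j (cx φ₂) y) x = 0 :=
    Finset.sum_eq_zero fun i _ => pd_off B.reg (CC.H129.contDiff_fE B.sm hf2 i) (fun y hy =>
      Finset.sum_eq_zero fun j _ => by
        unfold ent
        rw [B.off y hy, sub_self, Complex.ofReal_zero, zero_mul]) i hx
  have h3 : dv (fun _ => 1) (cx φ₂) x = dv (fun _ => 1) (cx φ) x := by
    unfold dv
    refine Finset.sum_congr rfl fun i _ => sub_eq_zero.1 ?_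
    have c1 := CC.H129.contDiff_fC (CC.H129.smM_one (n := n)) hf2 i
    have c2 := CC.H129.contDiff_fC (CC.H129.smM_one (n := n)) hf i
    rw [← H158.pd_sub (H158.dfa c1 x) (H158.dfa c2 x) i]
    refine pd_off B.reg (c1.sub c2) (fun y hy => ?_) i hx
    rw [← Finset.sum_sub_distrib]
    refine Finset.sum_eq_zero fun j _ => ?_
    have h4 : pd j (fun z => cx φ₂ z - cx φ z) y = 0 :=
      pd_off B.reg (hf2.sub hf) (fun z hz => by
        unfold cx
        rw [B.off₂ z hz, sub_self]) j hy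
    rw [H158.pd_sub (H158.dfa hf2 y) (H158.dfa hf y) j] at h4
    rw [← mul_sub, h4, mul_zero]
  rw [h2, h3, B.eq x, B.ba.eq x, B.off₂ x hx, ← sub_mul] at h1
  have h4 : ((φ x : ℝ) : ℂ) ≠ 0 := by exact_mod_cast (B.ba.p.2 x).ne'
  have h5 := sub_eq_zero.1 ((mul_eq_zero.1 h1).resolve_right h4)
  exact_mod_cast h5

/-- **Row D_BA** -/
theorem bad : RowBAD := by
  intro n Ω φ q₀ φ₂ t q B
  refine ⟨fun x hx => CC.H129.q0_off B.ba hx, fun x hx => ?_, fun x hx => q_off B hx⟩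
  rw [q_off B fun h => hx (B.sub h), CC.H129.q0_off B.ba hx]

end Vale.Agent.P088.LR.CD.H129
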