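import Vale.Agent.P088.H705.SV
import Vale.Agent.P088.H198.Defs4

/-!
# P088: row SQ2 (from the base density `φ² σ` to the potential `q`)
-/

open MeasureTheory Set
open scoped ContDiff Matrix

noncomputable section

namespace Vale.Agent.P088.LR.H129

open Vale.Agent.P088.LR Vale.Agent.P088.LR.CF Vale.Agent.P088.LR.H705

variable {n : ℕ}

theorem smM_scF {σ : V n → ℝ} (h : ContDiff ℝ ∞ σ) : SmM (sc σ) := by
  intro i j
  simp only [sc, Matrix.smul_apply, smul_eq_mul]
  exact h.mul contDiff_const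

theorem symm_scF (σ : V n → ℝ) (x : V n) : (sc σ x).IsSymm := by
  unfold sc
  exact (Matrix.isSymm_one).smul _

/-- `div (f² s ∇(u / f)) = f div (s ∇ u) - u div (s ∇ f)`. -/
theorem dv_sq_div {s : MF n} (hs : SmM s) (hsym : ∀ x, (s x).IsSymm) {f : V n → ℝ} (hf : SmP f)
    {u : V n → ℂ} (hu : ContDiff ℝ ∞ u) (x : V n) :
    dv (fun x => (f x) ^ 2 • s x) (fun y => u y * (cx f y)⁻¹) x =
      cx f x * dv s u x - u x * dv s (cx f) x := by
  have hcf : ContDiff ℝ ∞ (cx f) := Complex.ofRealCLM.contDiff.comp hf.1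
  have hf0 : ∀ x, cx f x ≠ 0 := fun x => by
    unfold cx
    exact_mod_cast (hf.2 x).ne'
  have hinv : ContDiff ℝ ∞ (fun y => (cx f y)⁻¹) := hcf.inv hf0
  have hW : ContDiff ℝ ∞ (fun y => u y * (cx f y)⁻¹) := hu.mul hinv
  have e1 : u = fun y => cx f y * (u y * (cx f y)⁻¹) := by
    funext y
    have := hf0 y
    field_simp
  have e2 : dv s u x = cx f x * dv s (fun y => u y * (cx f y)⁻¹) x +
      (u x * (cx f x)⁻¹) * dv s (cx f) x + 2 * B s (cx f) (fun y => u y * (cx f y)⁻¹) x := by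
    conv_lhs => rw [e1]
    exact dv_mul hs hsym hcf hW x
  rw [dv_sq hs hf.1 hW, e2]
  have h0 := hf0 x
  have e3 : cx f x * ((u x * (cx f x)⁻¹) * dv s (cx f) x) = u x * dv s (cx f) x := by
    field_simp
  linear_combination -e3

theorem contDiff_dvF {s : MF n} (hs : SmM s) {u : V n → ℂ} (hu : ContDiff ℝ ∞ u) :
    ContDiff ℝ ∞ (dv s u) := by
  have : dv s u = fun x => ∑ i, pd i (flx s u i) x := rfl
  rw [this]
  exact ContDiff.sum fun i _ => contDiff_pd (contDiff_flx hs hu i) i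

/-- **Row SQ2** -/
theorem sq2 : RowSQ2 := by
  intro n Ω hΩ hb hi φ σ hφ hσ hφ0 s hs hsym hoff q hq
  have hcφ : ContDiff ℝ ∞ (cx φ) := Complex.ofRealCLM.contDiff.comp hφ.1
  have hφn : ∀ x, cx φ x ≠ 0 := fun x => by
    unfold cx
    exact_mod_cast (hφ.2 x).ne'
  have hinv : ContDiff ℝ ∞ (fun y => (cx φ y)⁻¹) := hcφ.inv hφn
  have hσm : SmM (sc σ) := smM_scF hσ.1
  have hσs : ∀ x, (sc σ x).IsSymm := symm_scF σ
  have hh : SmM (fun x => s x - sc σ x) := fun i j => (hs i j).sub (hσm i j)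
  have hhs : ∀ x, (s x - sc σ x).IsSymm := fun x => (hsym x).sub (hσs x)
  have hho : ∀ x ∉ Ω, s x - sc σ x = 0 := fun x hx => by rw [hoff x hx, sub_self]
  have hflx0 : ∀ (u : V n → ℂ) (i : Fin n), ∀ x ∉ Ω, flx (fun x => s x - sc σ x) u i x = 0 := by
    intro u i x hx
    unfold flx
    refine Finset.sum_eq_zero fun j _ => ?_
    have : ((s x - sc σ x) i j : ℝ) = 0 := by rw [hho x hx]; rfl
    show (((s x - sc σ x) i j : ℝ) : ℂ) * pd j u x = 0
    rw [this, Complex.ofReal_zero, zero_mul]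
  have hq' : ∀ x, (q x : ℂ) * cx φ x = dv (fun x => s x - sc σ x) (cx φ) x := hq
  -- smoothness of `q`
  have hqs : ContDiff ℝ ∞ q := by
    have e : q = fun x => (dv (fun x => s x - sc σ x) (cx φ) x).re * (φ x)⁻¹ := by
      funext x
      rw [← hq x, ← Complex.ofReal_mul, Complex.ofReal_re]
      have := (hφ.2 x).ne'
      field_simp
    rw [e]
    exact (Complex.reCLM.contDiff.comp (contDiff_dvF hh hcφ)).mul
      (hφ.1.inv fun x => (hφ.2 x).ne')
  -- `q = 0` off `Ω`
  have hq0 : ∀ x ∉ Ω, q x = 0 := by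
    intro x hx
    have e1 : dv (fun x => s x - sc σ x) (cx φ) x = 0 := by
      show ∑ i, pd i (flx (fun x => s x - sc σ x) (cx φ) i) x = 0
      refine Finset.sum_eq_zero fun i _ => ?_
      unfold pd
      rw [H158.fderiv_zero_off hi (contDiff_flx hh hcφ i) (hflx0 (cx φ) i) hx]
      rfl
    have e2 := hq' x
    rw [e1] at e2
    have e3 := (mul_eq_zero.1 e2).resolve_right (hφn x)
    exact_mod_cast e3
  refine ⟨hqs, hq0, ?_⟩
  intro hSt U v hU hv hU0 hv0
  have hcq : ContDiff ℝ ∞ (cx q) := Complex.ofRealCLM.contDiff.comp hqs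
  have hio : ∀ f : V n → ℂ, Continuous f → IntegrableOn f Ω := fun f hf =>
    (hf.continuousOn.integrableOn_compact hb.isCompact_closure).mono_set subset_closure
  have hW1 : ContDiff ℝ ∞ (fun y => U y * (cx φ y)⁻¹) := hU.mul hinv
  have hW2 : ContDiff ℝ ∞ (fun y => v y * (cx φ y)⁻¹) := hv.mul hinv
  have hps : sc (ps2 φ σ) = fun x => (φ x) ^ 2 • sc σ x := by
    funext x
    unfold sc ps2
    rw [smul_smul]
  -- the two equations
  have a1 : ∀ x ∈ Ω, dv (sc (ps2 φ σ)) (fun y => U y * (cx φ y)⁻¹) x = 0 := by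
    intro x hx
    rw [hps, dv_sq_div hσm hσs hφ hU, hU0 x hx, hφ0 x hx, mul_zero, mul_zero, sub_zero]
  have hdvs : ∀ x, dv s (cx φ) x = dv (sc σ) (cx φ) x + dv (fun x => s x - sc σ x) (cx φ) x := by
    intro x
    show ∑ i, pd i (flx s (cx φ) i) x = ∑ i, pd i (flx (sc σ) (cx φ) i) x +
      ∑ i, pd i (flx (fun x => s x - sc σ x) (cx φ) i) x
    rw [← Finset.sum_add_distrib]
    refine Finset.sum_congr rfl fun i _ => ?_
    have e1 : flx s (cx φ) i = fun y => flx (sc σ) (cx φ) i y +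
        flx (fun x => s x - sc σ x) (cx φ) i y := by
      funext y
      unfold flx
      rw [← Finset.sum_add_distrib]
      refine Finset.sum_congr rfl fun j _ => ?_
      show (s y i j : ℂ) * pd j (cx φ) y = (sc σ y i j : ℂ) * pd j (cx φ) y +
        ((s y i j - sc σ y i j : ℝ) : ℂ) * pd j (cx φ) y
      rw [Complex.ofReal_sub]
      ring
    rw [e1]
    unfold pd
    rw [fderiv_fun_add ((contDiff_flx hσm hcφ i).differentiable (by simp) x)
      ((contDiff_flx hh hcφ i).differentiable (by simp) x)]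
    rfl
  have a2 : ∀ x ∈ Ω, dv (fun x => (φ x) ^ 2 • s x) (fun y => v y * (cx φ y)⁻¹) x = 0 := by
    intro x hx
    rw [dv_sq_div hs hsym hφ hv, hv0 x hx, hdvs x, hφ0 x hx, ← hq' x]
    ring
  have h0 := hSt _ _ hW1 hW2 a1 a2
  have hd : (fun x => (φ x) ^ 2 • s x - sc (ps2 φ σ) x) =
      fun x => (φ x) ^ 2 • (s x - sc σ x) := by
    funext x
    rw [hps, smul_sub]
  rw [hd, bl_eq] at h0
  -- the divergence term
  have hUW : ContDiff ℝ ∞ (fun y => U y * (v y * (cx φ y)⁻¹)) := hU.mul hW2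
  have hG : ∀ i, ContDiff ℝ ∞ (fun y => (U y * (v y * (cx φ y)⁻¹)) *
      flx (fun x => s x - sc σ x) (cx φ) i y) := fun i => hUW.mul (contDiff_flx hh hcφ i)
  have hG0 : ∀ i, ∀ x ∉ Ω, (U x * (v x * (cx φ x)⁻¹)) *
      flx (fun x => s x - sc σ x) (cx φ) i x = 0 := by
    intro i x hx
    rw [hflx0 (cx φ) i x hx, mul_zero]
  have h5 : ∫ x in Ω, (B (fun x => s x - sc σ x) (fun y => U y * (v y * (cx φ y)⁻¹)) (cx φ) x +
      (U x * (v x * (cx φ x)⁻¹)) * dv (fun x => s x - sc σ x) (cx φ) x) = 0 := by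
    have h6 : ∫ x, ∑ i, pd i (fun y => (U y * (v y * (cx φ y)⁻¹)) *
        flx (fun x => s x - sc σ x) (cx φ) i y) x = 0 := by
      rw [integral_finsetSum _ fun i _ => (H158.integral_pd_zero hb (hG i) (hG0 i) i).1]
      exact Finset.sum_eq_zero fun i _ => (H158.integral_pd_zero hb (hG i) (hG0 i) i).2
    have h7 : ∫ x in Ω, ∑ i, pd i (fun y => (U y * (v y * (cx φ y)⁻¹)) *
        flx (fun x => s x - sc σ x) (cx φ) i y) x =
        ∫ x, ∑ i, pd i (fun y => (U y * (v y * (cx φ y)⁻¹)) *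
        flx (fun x => s x - sc σ x) (cx φ) i y) x := by
      apply setIntegral_eq_integral_of_forall_compl_eq_zero
      intro x hx
      refine Finset.sum_eq_zero fun i _ => ?_
      unfold pd
      rw [H158.fderiv_zero_off hi (hG i) (hG0 i) hx]
      rfl
    rw [h6] at h7
    rw [← h7]
    refine integral_congr_ae (Filter.Eventually.of_forall fun x => ?_)
    exact (div_mul hh hUW hcφ x).symm
  -- the pointwise identity
  have hpt : ∀ x, B (fun x => s x - sc σ x) U v x + (q x : ℂ) * U x * v x =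
      B (fun x => (φ x) ^ 2 • (s x - sc σ x)) (fun y => U y * (cx φ y)⁻¹)
        (fun y => v y * (cx φ y)⁻¹) x +
      (B (fun x => s x - sc σ x) (fun y => U y * (v y * (cx φ y)⁻¹)) (cx φ) x +
      (U x * (v x * (cx φ x)⁻¹)) * dv (fun x => s x - sc σ x) (cx φ) x) := by
    intro x
    have eU : U = fun y => cx φ y * (U y * (cx φ y)⁻¹) := by
      funext y
      have := hφn y
      field_simp
    have ev : v = fun y => cx φ y * (v y * (cx φ y)⁻¹) := by
      funext y
      have := hφn y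
      field_simp
    have b1 : B (fun x => s x - sc σ x) U v x =
        cx φ x * (cx φ x * B (fun x => s x - sc σ x) (fun y => U y * (cx φ y)⁻¹)
          (fun y => v y * (cx φ y)⁻¹) x + (v x * (cx φ x)⁻¹) *
          B (fun x => s x - sc σ x) (fun y => U y * (cx φ y)⁻¹) (cx φ) x) +
        (U x * (cx φ x)⁻¹) * (cx φ x * B (fun x => s x - sc σ x) (cx φ)
          (fun y => v y * (cx φ y)⁻¹) x + (v x * (cx φ x)⁻¹) *
          B (fun x => s x - sc σ x) (cx φ) (cx φ) x) := by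
      conv_lhs => rw [eU, ev]
      rw [B_mul_left _ hcφ hW1, B_mul_right _ hcφ hW2, B_mul_right _ hcφ hW2]
    have b2 : B (fun x => s x - sc σ x) (fun y => U y * (v y * (cx φ y)⁻¹)) (cx φ) x =
        U x * B (fun x => s x - sc σ x) (fun y => v y * (cx φ y)⁻¹) (cx φ) x +
        (v x * (cx φ x)⁻¹) * (cx φ x * B (fun x => s x - sc σ x)
          (fun y => U y * (cx φ y)⁻¹) (cx φ) x + (U x * (cx φ x)⁻¹) *
          B (fun x => s x - sc σ x) (cx φ) (cx φ) x) := by
      rw [B_mul_left _ hU hW2]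
      have b3 : B (fun x => s x - sc σ x) U (cx φ) x =
          cx φ x * B (fun x => s x - sc σ x) (fun y => U y * (cx φ y)⁻¹) (cx φ) x +
          (U x * (cx φ x)⁻¹) * B (fun x => s x - sc σ x) (cx φ) (cx φ) x := by
        conv_lhs => rw [eU]
        rw [B_mul_left _ hcφ hW1]
      rw [b3]
    rw [b1, b2, B_sq, ← hq' x, B_symm hhs (cx φ) (fun y => v y * (cx φ y)⁻¹)]
    have h0 := hφn x
    field_simp
    ring
  have k1 : IntegrableOn (B (fun x => s x - sc σ x) U v) Ω := hio _ (continuous_B hh hU hv)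
  have k2 : IntegrableOn (fun x => (q x : ℂ) * U x * v x) Ω :=
    hio _ ((hcq.continuous.mul hU.continuous).mul hv.continuous)
  have hh2 : SmM (fun x => (φ x) ^ 2 • (s x - sc σ x)) := fun i j => by
    simp only [Matrix.smul_apply, smul_eq_mul]
    exact (hφ.1.pow 2).mul (hh i j)
  have k3 : IntegrableOn (B (fun x => (φ x) ^ 2 • (s x - sc σ x)) (fun y => U y * (cx φ y)⁻¹)
        (fun y => v y * (cx φ y)⁻¹)) Ω := hio _ (continuous_B hh2 hW1 hW2)
  have k4 : IntegrableOn (fun x => B (fun x => s x - sc σ x) (fun y => U y * (v y * (cx φ y)⁻¹))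
      (cx φ) x + (U x * (v x * (cx φ x)⁻¹)) * dv (fun x => s x - sc σ x) (cx φ) x) Ω :=
    hio _ ((continuous_B hh hUW hcφ).add
      (hUW.continuous.mul (contDiff_dvF hh hcφ).continuous))
  rw [bl_eq, ← integral_add k1 k2, integral_congr_ae (Filter.Eventually.of_forall hpt),
    integral_add k3 k4, h0, h5, add_zero]

end Vale.Agent.P088.LR.H129
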