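import Vale.Agent.P088.H129.DBa
import Vale.Agent.P088.H129.SQ2

/-!
# P088, theorem D, row D_ID: the identity for `u = φ U`, `v = φ₂ V`
-/

open MeasureTheory Set
open scoped ContDiff Matrix

noncomputable section

namespace Vale.Agent.P088.LR.CD.H129

open Vale.Agent.P088.LR Vale.Agent.P088.LR.CF Vale.Agent.P088.LR.CC Vale.Agent.P088.LR.CD
open Vale.Agent.P088.LR.H705

variable {n : ℕ}

theorem int_div_zero {Ω : Set (V n)} (hb : Bornology.IsBounded Ω)
    (hi : interior (closure Ω) = Ω) {G : Fin n → V n → ℂ} (hG : ∀ i, ContDiff ℝ ∞ (G i))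
    (h0 : ∀ i, ∀ x ∉ Ω, G i x = 0) : ∫ x in Ω, ∑ i, pd i (G i) x = 0 := by
  have h6 : ∫ x, ∑ i, pd i (G i) x = 0 := by
    rw [integral_finsetSum _ fun i _ => (H158.integral_pd_zero hb (hG i) (h0 i) i).1]
    exact Finset.sum_eq_zero fun i _ => (H158.integral_pd_zero hb (hG i) (h0 i) i).2
  rw [setIntegral_eq_integral_of_forall_compl_eq_zero, h6]
  intro x hx
  exact Finset.sum_eq_zero fun i _ => pd_off hi (hG i) (h0 i) i hx

theorem B_sub_left (s : MF n) {u u' v : V n → ℂ} (hu : ContDiff ℝ ∞ u) (hu' : ContDiff ℝ ∞ u')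
    (x : V n) : B s (fun y => u y - u' y) v x = B s u v x - B s u' v x := by
  unfold B
  rw [← Finset.sum_sub_distrib]
  refine Finset.sum_congr rfl fun i _ => ?_
  rw [← Finset.sum_sub_distrib]
  refine Finset.sum_congr rfl fun j _ => ?_
  rw [H158.pd_sub (H158.dfa hu x) (H158.dfa hu' x) i]
  ring

theorem B_sub_ten (s s' : MF n) (u v : V n → ℂ) (x : V n) :
    B (fun y => s y - s' y) u v x = B s u v x - B s' u v x := by
  unfold B
  rw [← Finset.sum_sub_distrib]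
  refine Finset.sum_congr rfl fun i _ => ?_
  rw [← Finset.sum_sub_distrib]
  refine Finset.sum_congr rfl fun j _ => ?_
  show ((s x i j - s' x i j : ℝ) : ℂ) * pd i u x * pd j v x = _
  rw [Complex.ofReal_sub]
  ring

/-- `f² s(∇(u/f), ∇(v/f)) = s(∇u, ∇v) - s(∇(uv/f), ∇f)`. -/
theorem B_div {s : MF n} (hsym : ∀ x, (s x).IsSymm) {f : V n → ℝ} (hf : SmP f)
    {u v : V n → ℂ} (hu : ContDiff ℝ ∞ u) (hv : ContDiff ℝ ∞ v) (x : V n) :
    B (fun x => (f x) ^ 2 • s x) (fun y => u y * (cx f y)⁻¹) (fun y => v y * (cx f y)⁻¹) x =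
      B s u v x - B s (fun y => u y * (v y * (cx f y)⁻¹)) (cx f) x := by
  have hcf : ContDiff ℝ ∞ (cx f) := Complex.ofRealCLM.contDiff.comp hf.1
  have hf0 : ∀ x, cx f x ≠ 0 := fun x => by
    unfold cx
    exact_mod_cast (hf.2 x).ne'
  have hinv : ContDiff ℝ ∞ (fun y => (cx f y)⁻¹) := hcf.inv hf0
  have hW1 : ContDiff ℝ ∞ (fun y => u y * (cx f y)⁻¹) := hu.mul hinv
  have hW2 : ContDiff ℝ ∞ (fun y => v y * (cx f y)⁻¹) := hv.mul hinv
  have eU : u = fun y => cx f y * (u y * (cx f y)⁻¹) := by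
    funext y
    have := hf0 y
    field_simp
  have ev : v = fun y => cx f y * (v y * (cx f y)⁻¹) := by
    funext y
    have := hf0 y
    field_simp
  have b1 : B s u v x =
      cx f x * (cx f x * B s (fun y => u y * (cx f y)⁻¹) (fun y => v y * (cx f y)⁻¹) x +
        (v x * (cx f x)⁻¹) * B s (fun y => u y * (cx f y)⁻¹) (cx f) x) +
      (u x * (cx f x)⁻¹) * (cx f x * B s (cx f) (fun y => v y * (cx f y)⁻¹) x +
        (v x * (cx f x)⁻¹) * B s (cx f) (cx f) x) := by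
    conv_lhs => rw [eU, ev]
    rw [B_mul_left _ hcf hW1, B_mul_right _ hcf hW2, B_mul_right _ hcf hW2]
  have b2 : B s (fun y => u y * (v y * (cx f y)⁻¹)) (cx f) x =
      u x * B s (fun y => v y * (cx f y)⁻¹) (cx f) x +
      (v x * (cx f x)⁻¹) * (cx f x * B s (fun y => u y * (cx f y)⁻¹) (cx f) x +
        (u x * (cx f x)⁻¹) * B s (cx f) (cx f) x) := by
    rw [B_mul_left _ hu hW2]
    have b3 : B s u (cx f) x = cx f x * B s (fun y => u y * (cx f y)⁻¹) (cx f) x +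
        (u x * (cx f x)⁻¹) * B s (cx f) (cx f) x := by
      conv_lhs => rw [eU]
      rw [B_mul_left _ hcf hW1]
    rw [b3]
  rw [b1, b2, B_sq, B_symm hsym (cx f) (fun y => v y * (cx f y)⁻¹)]
  have h0 := hf0 x
  field_simp
  ring

/-- replacing the test function -/
theorem bl_test {Ω : Set (V n)} (hΩ : IsOpen Ω) (hb : Bornology.IsBounded Ω)
    (hi : interior (closure Ω) = Ω) {s : MF n} (hs : SmM s) {u u' v : V n → ℂ}
    (hu : ContDiff ℝ ∞ u) (hu' : ContDiff ℝ ∞ u') (hv : ContDiff ℝ ∞ v)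
    (hoff : ∀ x ∉ Ω, u x = u' x) (h0 : ∀ x ∈ Ω, dv s v x = 0) :
    ∫ x in Ω, B s u v x = ∫ x in Ω, B s u' v x := by
  have hio : ∀ f : V n → ℂ, Continuous f → IntegrableOn f Ω := fun f hf =>
    (hf.continuousOn.integrableOn_compact hb.isCompact_closure).mono_set subset_closure
  have hd : ContDiff ℝ ∞ fun y => u y - u' y := hu.sub hu'
  have h1 := int_div_zero hb hi (G := fun i y => (u y - u' y) * flx s v i y)
    (fun i => hd.mul (contDiff_flx hs hv i)) (fun i x hx => by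
      show (u x - u' x) * flx s v i x = 0
      rw [hoff x hx, sub_self, zero_mul])
  have h2 : ∫ x in Ω, B s (fun y => u y - u' y) v x = 0 := by
    rw [← h1]
    refine setIntegral_congr_fun hΩ.measurableSet fun x hx => ?_
    show _ = ∑ i, pd i (fun y => (u y - u' y) * flx s v i y) x
    rw [div_mul hs hd hv, h0 x hx, mul_zero, add_zero]
  have h3 : ∫ x in Ω, B s (fun y => u y - u' y) v x =
      (∫ x in Ω, B s u v x) - ∫ x in Ω, B s u' v x := by
    rw [← integral_sub (hio _ (continuous_B hs hu hv)) (hio _ (continuous_B hs hu' hv))]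
    exact integral_congr_ae (Filter.Eventually.of_forall fun x => B_sub_left s hu hu' x)
  rw [h3] at h2
  exact sub_eq_zero.1 h2

/-- **Row D_ID** -/
theorem idd : RowIDD := by
  intro n Ω φ q₀ φ₂ t q hB u v hu hv hu0 hv0
  have hφ : SmP φ := hB.ba.p
  have hφ2 : SmP φ₂ := hB.p₂
  have hs := hB.sm
  have hi := hB.reg
  have hΩ := hB.op
  have hb : Bornology.IsBounded Ω := by
    have hcc : IsCompact (core n) := by
      rw [H884.core_eq]
      exact isCompact_closedBall _ _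
    exact hcc.isBounded.subset (hB.sub.trans CC.H129.bal_core)
  have hio : ∀ f : V n → ℂ, Continuous f → IntegrableOn f Ω := fun f hf =>
    (hf.continuousOn.integrableOn_compact hb.isCompact_closure).mono_set subset_closure
  have hcφ : ContDiff ℝ ∞ (cx φ) := CC.H129.contDiff_cx hφ.1
  have hcφ2 : ContDiff ℝ ∞ (cx φ₂) := CC.H129.contDiff_cx hφ2.1
  have hn1 : ∀ x, cx φ x ≠ 0 := fun x => by
    unfold cx
    exact_mod_cast (hφ.2 x).ne'
  have hn2 : ∀ x, cx φ₂ x ≠ 0 := fun x => by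
    unfold cx
    exact_mod_cast (hφ2.2 x).ne'
  have hi1 : ContDiff ℝ ∞ (fun y => (cx φ y)⁻¹) := hcφ.inv hn1
  have hi2 : ContDiff ℝ ∞ (fun y => (cx φ₂ y)⁻¹) := hcφ2.inv hn2
  have h1m : SmM (fun _ : V n => (1 : Matrix (Fin n) (Fin n) ℝ)) := CC.H129.smM_one
  have h1s : ∀ x : V n, ((fun _ : V n => (1 : Matrix (Fin n) (Fin n) ℝ)) x).IsSymm :=
    fun _ => Matrix.isSymm_one
  have hps : sc (fun x => φ x ^ 2) =
      fun x => (φ x) ^ 2 • (fun _ : V n => (1 : Matrix (Fin n) (Fin n) ℝ)) x := rfl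
  have hm1 : SmM (fun x => (φ x) ^ 2 • (1 : Matrix (Fin n) (Fin n) ℝ)) := fun i j =>
    (hφ.1.pow 2).mul contDiff_const
  have hm2 : SmM (fun x => (φ₂ x) ^ 2 • t x) := fun i j => (hφ2.1.pow 2).mul (hs i j)
  have hU1 : ContDiff ℝ ∞ (fun y => u y * (cx φ y)⁻¹) := hu.mul hi1
  have hU2 : ContDiff ℝ ∞ (fun y => u y * (cx φ₂ y)⁻¹) := hu.mul hi2
  have hV1 : ContDiff ℝ ∞ (fun y => v y * (cx φ y)⁻¹) := hv.mul hi1
  have hV2 : ContDiff ℝ ∞ (fun y => v y * (cx φ₂ y)⁻¹) := hv.mul hi2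
  have hoff : ∀ x ∉ Ω, cx φ₂ x = cx φ x := fun x hx => by
    unfold cx
    rw [hB.off₂ x hx]
  -- the two equations
  have a1 : ∀ x ∈ Ω, dv (sc (fun x => φ x ^ 2)) (fun y => u y * (cx φ y)⁻¹) x = 0 := by
    intro x hx
    rw [hps, LR.H129.dv_sq_div h1m h1s hφ hu, hu0 x hx, hB.ba.eq x]
    show cx φ x * ((q₀ x : ℂ) * u x) - u x * ((q₀ x : ℂ) * (φ x : ℂ)) = 0
    have e4 : cx φ x = (φ x : ℂ) := rfl
    rw [e4]
    ring
  have a2 : ∀ x ∈ Ω, dv (fun x => (φ₂ x) ^ 2 • t x) (fun y => v y * (cx φ₂ y)⁻¹) x = 0 := by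
    intro x hx
    rw [LR.H129.dv_sq_div hs hB.sy hφ2 hv, hv0 x hx, hB.eq x]
    have e4 : cx φ₂ x = (φ₂ x : ℂ) := rfl
    rw [e4]
    ring
  have h0 := hB.st _ _ hU1 hV2 a1 a2
  rw [bl_eq] at h0
  have h1 : (∫ x in Ω, B (fun x => (φ₂ x) ^ 2 • t x) (fun y => u y * (cx φ y)⁻¹)
      (fun y => v y * (cx φ₂ y)⁻¹) x) - (∫ x in Ω, B (sc fun x => φ x ^ 2)
      (fun y => u y * (cx φ y)⁻¹) (fun y => v y * (cx φ₂ y)⁻¹) x) = 0 := by
    rw [← h0, ← integral_sub (hio _ (continuous_B hm2 hU1 hV2))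
      (hio _ (continuous_B (s := sc fun x => φ x ^ 2) hm1 hU1 hV2))]
    exact integral_congr_ae (Filter.Eventually.of_forall fun x =>
      (B_sub_ten (fun x => (φ₂ x) ^ 2 • t x) (sc fun x => φ x ^ 2) _ _ x).symm)
  have c1 := bl_test hΩ hb hi hm2 hU1 hU2 hV2 (fun x hx => by
    show u x * (cx φ x)⁻¹ = u x * (cx φ₂ x)⁻¹
    rw [hoff x hx]) a2
  have hs1 : ∀ x, ((sc fun x => φ x ^ 2) x).IsSymm := fun x => Matrix.isSymm_one.smul _
  have c2 := bl_test hΩ hb hi (s := sc fun x => φ x ^ 2) hm1 hV2 hV1 hU1 (fun x hx => by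
    show v x * (cx φ₂ x)⁻¹ = v x * (cx φ x)⁻¹
    rw [hoff x hx]) a1
  have c2' : (∫ x in Ω, B (sc fun x => φ x ^ 2)
      (fun y => u y * (cx φ y)⁻¹) (fun y => v y * (cx φ₂ y)⁻¹) x) =
      ∫ x in Ω, B (sc fun x => φ x ^ 2)
      (fun y => u y * (cx φ y)⁻¹) (fun y => v y * (cx φ y)⁻¹) x := by
    have e1 : ∀ f g : V n → ℂ, (∫ x in Ω, B (sc fun x => φ x ^ 2) f g x) =
        ∫ x in Ω, B (sc fun x => φ x ^ 2) g f x := fun f g =>
      integral_congr_ae (Filter.Eventually.of_forall fun x => B_symm hs1 f g x)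
    rw [e1, c2, e1]
  rw [c1, c2'] at h1
  -- the divergence term
  have hg2 : ContDiff ℝ ∞ (fun y => u y * (v y * (cx φ₂ y)⁻¹)) := hu.mul hV2
  have hg1 : ContDiff ℝ ∞ (fun y => u y * (v y * (cx φ y)⁻¹)) := hu.mul hV1
  have hG2 : ∀ i, ContDiff ℝ ∞ (fun y => (u y * (v y * (cx φ₂ y)⁻¹)) * flx t (cx φ₂) i y) :=
    fun i => hg2.mul (contDiff_flx hs hcφ2 i)
  have hG1 : ∀ i, ContDiff ℝ ∞ (fun y => (u y * (v y * (cx φ y)⁻¹)) *
      flx (fun _ => 1) (cx φ) i y) := fun i => hg1.mul (contDiff_flx h1m hcφ i)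
  have h5 := int_div_zero hb hi (G := fun i y => (u y * (v y * (cx φ₂ y)⁻¹)) * flx t (cx φ₂) i y -
      (u y * (v y * (cx φ y)⁻¹)) * flx (fun _ => 1) (cx φ) i y)
    (fun i => (hG2 i).sub (hG1 i)) (fun i x hx => by
      have e : flx t (cx φ₂) i x = flx (fun _ => 1) (cx φ) i x := by
        unfold flx
        refine Finset.sum_congr rfl fun j _ => ?_
        have h4 : pd j (fun z => cx φ₂ z - cx φ z) x = 0 :=
          pd_off hi (hcφ2.sub hcφ) (fun z hz => by rw [hoff z hz, sub_self]) j hx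
        rw [H158.pd_sub (H158.dfa hcφ2 x) (H158.dfa hcφ x) j] at h4
        rw [hB.off x hx, sub_eq_zero.1 h4]
      show (u x * (v x * (cx φ₂ x)⁻¹)) * flx t (cx φ₂) i x -
        (u x * (v x * (cx φ x)⁻¹)) * flx (fun _ => 1) (cx φ) i x = 0
      rw [e, hoff x hx, sub_self])
  have hh : SmM (fun x => t x - 1) := fun i j => (hs i j).sub contDiff_const
  have hcq : ContDiff ℝ ∞ (fun x => ((q x - q₀ x : ℝ) : ℂ)) :=
    Complex.ofRealCLM.contDiff.comp (hB.sq.sub hB.ba.sq)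
  have k1 : IntegrableOn (B (fun x => t x - 1) u v) Ω := hio _ (continuous_B hh hu hv)
  have k2 : IntegrableOn (fun x => ((q x - q₀ x : ℝ) : ℂ) * u x * v x) Ω :=
    hio _ ((hcq.continuous.mul hu.continuous).mul hv.continuous)
  have k3 : IntegrableOn (fun x => ∑ i, pd i (fun y =>
      (u y * (v y * (cx φ₂ y)⁻¹)) * flx t (cx φ₂) i y -
      (u y * (v y * (cx φ y)⁻¹)) * flx (fun _ => 1) (cx φ) i y) x) Ω :=
    hio _ (continuous_finsetSum _ fun i _ =>
      (H158.contDiff_pd ((hG2 i).sub (hG1 i)) i).continuous)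
  have k4 := hio _ (continuous_B hm2 hU2 hV2)
  have k5 := hio _ (continuous_B (s := sc fun x => φ x ^ 2) hm1 hU1 hV1)
  have k6 : IntegrableOn (fun x => B (fun x => (φ₂ x) ^ 2 • t x) (fun y => u y * (cx φ₂ y)⁻¹)
        (fun y => v y * (cx φ₂ y)⁻¹) x - B (sc fun x => φ x ^ 2)
        (fun y => u y * (cx φ y)⁻¹) (fun y => v y * (cx φ y)⁻¹) x) Ω := k4.sub k5
  have hpt : ∀ x, B (fun x => t x - 1) u v x + ((q x - q₀ x : ℝ) : ℂ) * u x * v x =
      (B (fun x => (φ₂ x) ^ 2 • t x) (fun y => u y * (cx φ₂ y)⁻¹)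
        (fun y => v y * (cx φ₂ y)⁻¹) x - B (sc fun x => φ x ^ 2)
        (fun y => u y * (cx φ y)⁻¹) (fun y => v y * (cx φ y)⁻¹) x) +
      ∑ i, pd i (fun y => (u y * (v y * (cx φ₂ y)⁻¹)) * flx t (cx φ₂) i y -
        (u y * (v y * (cx φ y)⁻¹)) * flx (fun _ => 1) (cx φ) i y) x := by
    intro x
    have g1 : ∀ i, pd i (fun y => (u y * (v y * (cx φ₂ y)⁻¹)) * flx t (cx φ₂) i y -
        (u y * (v y * (cx φ y)⁻¹)) * flx (fun _ => 1) (cx φ) i y) x =
        pd i (fun y => (u y * (v y * (cx φ₂ y)⁻¹)) * flx t (cx φ₂) i y) x -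
        pd i (fun y => (u y * (v y * (cx φ y)⁻¹)) * flx (fun _ => 1) (cx φ) i y) x := fun i =>
      H158.pd_sub (H158.dfa (hG2 i) x) (H158.dfa (hG1 i) x) i
    rw [Finset.sum_congr rfl fun i _ => g1 i, Finset.sum_sub_distrib, div_mul hs hg2 hcφ2,
      div_mul h1m hg1 hcφ, B_div hB.sy hφ2 hu hv, hps, B_div h1s hφ hu hv,
      B_sub_ten t (fun _ => 1) u v x, hB.eq x, hB.ba.eq x, Complex.ofReal_sub]
    have e1 : cx φ x = (φ x : ℂ) := rfl
    have e2 : cx φ₂ x = (φ₂ x : ℂ) := rfl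
    have n1 := hn1 x
    have n2 := hn2 x
    rw [e1] at n1
    rw [e2] at n2
    rw [e1, e2]
    field_simp
    ring
  rw [bl_eq, ← integral_add k1 k2, integral_congr_ae (Filter.Eventually.of_forall hpt),
    integral_add k6 k3, integral_sub k4 k5, h1, zero_add]
  exact h5

end Vale.Agent.P088.LR.CD.H129
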