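import Vale.Agent.P088.H599.J.Defs
import Vale.Agent.P088.H158.PushB

/-!
# P088, row U_RED: the reduction to the harmonic frame
-/

open MeasureTheory Set
open scoped ContDiff Matrix

noncomputable section

namespace Vale.Agent.P088.LR.U.H129

open Vale.Agent.P088.LR Vale.Agent.P088.LR.CF Vale.Agent.P088.LR.H158 Vale.Agent.P088.LR.U

variable {n N : ℕ}

/-! ### the covariant calculus -/

theorem smC_pdm {P : MC n N} (hP : SmC P) (i : Fin n) : SmC (pdm i P) := fun a b =>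
  contDiff_pd (hP a b) i

theorem smC_add {P Q : MC n N} (hP : SmC P) (hQ : SmC Q) : SmC fun x => P x + Q x := fun a b =>
  (hP a b).add (hQ a b)

theorem smC_sub {P Q : MC n N} (hP : SmC P) (hQ : SmC Q) : SmC fun x => P x - Q x := fun a b =>
  (hP a b).sub (hQ a b)

theorem smC_sum {ι : Type*} {u : Finset ι} {P : ι → MC n N} (hP : ∀ j ∈ u, SmC (P j)) :
    SmC fun x => ∑ j ∈ u, P j x := by
  intro a b
  simp only [Matrix.sum_apply]
  exact ContDiff.sum fun j hj => hP j hj a b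

theorem smC_smul {c : V n → ℝ} (hc : ContDiff ℝ ∞ c) {P : MC n N} (hP : SmC P) :
    SmC fun x => (c x : ℂ) • P x := by
  intro a b
  simp only [Matrix.smul_apply, smul_eq_mul]
  exact (Complex.ofRealCLM.contDiff.comp hc).mul (hP a b)

theorem smC_cdC {A : Cn n N} (hA : SmU A) {F : MC n N} (hF : SmC F) (i : Fin n) :
    SmC (cdC A i F) := smC_add (smC_pdm hF i) (SmC_mul (hA.1 i) hF)

theorem smC_flC {s : MF n} (hs : SmM s) {A : Cn n N} (hA : SmU A) {F : MC n N} (hF : SmC F)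
    (i : Fin n) : SmC (flC s A F i) :=
  smC_sum fun j _ => smC_smul (hs i j) (smC_cdC hA hF j)

theorem pdm_add {P Q : MC n N} (hP : SmC P) (hQ : SmC Q) (i : Fin n) (x : V n) :
    pdm i (fun x => P x + Q x) x = pdm i P x + pdm i Q x := by
  ext a b
  exact pd_add (dfa (hP a b) x) (dfa (hQ a b) x) i

theorem pdm_sub {P Q : MC n N} (hP : SmC P) (hQ : SmC Q) (i : Fin n) (x : V n) :
    pdm i (fun x => P x - Q x) x = pdm i P x - pdm i Q x := by
  ext a b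
  exact pd_sub (dfa (hP a b) x) (dfa (hQ a b) x) i

/-- `D_i (F u) = (D_i F) u + F ∂_i u`. -/
theorem cd_mulVec (A : Cn n N) {F : MC n N} (hF : SmC F) {u : V n → Fin N → ℂ}
    (hu : ContDiff ℝ ∞ u) (i : Fin n) (x : V n) :
    cd A i (fun y => F y *ᵥ u y) x = cdC A i F x *ᵥ u x + F x *ᵥ pd i u x := by
  unfold cd cdC
  rw [pd_mulVec hF hu, Matrix.add_mulVec, Matrix.mulVec_mulVec]
  abel

/-- `∂_i (U* W) = (D_i U)* W + U* D_i W`. -/
theorem pdm_star_mul {A : Cn n N} (hA : SmU A) {U W : MC n N} (hU : SmC U) (hW : SmC W)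
    (i : Fin n) (x : V n) : pdm i (fun y => (U y)ᴴ * W y) x =
      (cdC A i U x)ᴴ * W x + (U x)ᴴ * cdC A i W x := by
  rw [pdm_mul (SmC_star hU) hW, pdm_star hU]
  unfold cdC
  rw [Matrix.conjTranspose_add, Matrix.conjTranspose_mul, hA.2 i x]
  noncomm_ring

theorem flC_star (s : MF n) (A : Cn n N) (F : MC n N) (i : Fin n) (x : V n) :
    (flC s A F i x)ᴴ = ∑ j, (s x i j : ℂ) • (cdC A j F x)ᴴ := by
  unfold flC
  rw [Matrix.conjTranspose_sum]
  refine Finset.sum_congr rfl fun j _ => ?_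
  rw [Matrix.conjTranspose_smul]
  congr 1
  exact Complex.conj_ofReal _

/-- `κ_i = F* Φ_i - Φ_i* F`. -/
theorem qF_eq (s : MF n) (A : Cn n N) (F : MC n N) (i : Fin n) (x : V n) :
    qF s A F i x = (F x)ᴴ * flC s A F i x - (flC s A F i x)ᴴ * F x := by
  rw [flC_star]
  unfold qF KF flC
  rw [Matrix.mul_sum, Matrix.sum_mul, ← Finset.sum_sub_distrib]
  refine Finset.sum_congr rfl fun j _ => ?_
  rw [smul_sub, Matrix.mul_smul, Matrix.smul_mul]

theorem sum_flC_symm {s : MF n} (hsym : ∀ x, (s x).IsSymm) (A : Cn n N) (F : MC n N) (x : V n) :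
    ∑ i, (cdC A i F x)ᴴ * flC s A F i x = ∑ i, (flC s A F i x)ᴴ * cdC A i F x := by
  simp only [flC_star]
  unfold flC
  simp only [Matrix.mul_sum, Matrix.sum_mul, Matrix.mul_smul, Matrix.smul_mul]
  rw [Finset.sum_comm]
  refine Finset.sum_congr rfl fun i _ => Finset.sum_congr rfl fun j _ => ?_
  rw [(hsym x).apply i j]

/-- `div κ = 0`. -/
theorem div_qF {s : MF n} (hs : SmM s) (hsym : ∀ x, (s x).IsSymm) {A : Cn n N} (hA : SmU A)
    {F : MC n N} (hF : SmC F) {x : V n} (hx : LaC s A F x = 0) :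
    ∑ i, pdm i (qF s A F i) x = 0 := by
  have h1 : ∀ i, pdm i (qF s A F i) x =
      ((cdC A i F x)ᴴ * flC s A F i x + (F x)ᴴ * cdC A i (flC s A F i) x) -
      ((cdC A i (flC s A F i) x)ᴴ * F x + (flC s A F i x)ᴴ * cdC A i F x) := by
    intro i
    have e : qF s A F i = fun y => (F y)ᴴ * flC s A F i y - (flC s A F i y)ᴴ * F y := by
      funext y
      exact qF_eq s A F i y
    have hfl := smC_flC hs hA hF i
    rw [e, pdm_sub (SmC_mul (SmC_star hF) hfl) (SmC_mul (SmC_star hfl) hF),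
      pdm_star_mul hA hF hfl, pdm_star_mul hA hfl hF]
  simp only [h1, Finset.sum_sub_distrib, Finset.sum_add_distrib]
  rw [sum_flC_symm hsym, ← Matrix.mul_sum, ← Matrix.sum_mul, ← Matrix.conjTranspose_sum]
  have h2 : ∑ i, cdC A i (flC s A F i) x = 0 := hx
  rw [h2]
  simp

/-! ### the bilinear form `v* M u` -/

/-- `v* M u` -/
def bt (d : Fin N → ℂ) (M : Matrix (Fin N) (Fin N) ℂ) (e : Fin N → ℂ) : ℂ := star d ⬝ᵥ (M *ᵥ e)

theorem bt_add (d : Fin N → ℂ) (M M' : Matrix (Fin N) (Fin N) ℂ) (e : Fin N → ℂ) :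
    bt d (M + M') e = bt d M e + bt d M' e := by
  unfold bt
  rw [Matrix.add_mulVec, dotProduct_add]

theorem bt_sub (d : Fin N → ℂ) (M M' : Matrix (Fin N) (Fin N) ℂ) (e : Fin N → ℂ) :
    bt d (M - M') e = bt d M e - bt d M' e := by
  unfold bt
  rw [Matrix.sub_mulVec, dotProduct_sub]

theorem bt_smul (d : Fin N → ℂ) (c : ℂ) (M : Matrix (Fin N) (Fin N) ℂ) (e : Fin N → ℂ) :
    bt d (c • M) e = c * bt d M e := by
  unfold bt
  rw [Matrix.smul_mulVec, dotProduct_smul, smul_eq_mul]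

theorem bt_sum {ι : Type*} (u : Finset ι) (d : Fin N → ℂ) (M : ι → Matrix (Fin N) (Fin N) ℂ)
    (e : Fin N → ℂ) : bt d (∑ i ∈ u, M i) e = ∑ i ∈ u, bt d (M i) e := by
  unfold bt
  rw [Matrix.sum_mulVec, dotProduct_sum]

theorem bt_zero (d : Fin N → ℂ) (e : Fin N → ℂ) : bt d 0 e = 0 := by
  unfold bt
  rw [Matrix.zero_mulVec, dotProduct_zero]

theorem dot_star (M M' : Matrix (Fin N) (Fin N) ℂ) (d e : Fin N → ℂ) :
    (M *ᵥ e) ⬝ᵥ star (M' *ᵥ d) = bt d (M'ᴴ * M) e := by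
  unfold bt
  rw [dotProduct_comm, Matrix.star_mulVec, ← Matrix.dotProduct_mulVec, Matrix.mulVec_mulVec]

theorem pd_bt {v u : V n → Fin N → ℂ} (hv : ContDiff ℝ ∞ v) (hu : ContDiff ℝ ∞ u) {G : MC n N}
    (hG : SmC G) (i : Fin n) (x : V n) : pd i (fun y => bt (v y) (G y) (u y)) x =
      bt (pd i v x) (G x) (u x) + bt (v x) (pdm i G x) (u x) + bt (v x) (G x) (pd i u x) := by
  have hGu := contDiff_mulVec hG hu
  unfold bt
  simp only [dotProduct, Pi.star_apply]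
  have hd : ∀ k ∈ Finset.univ, DifferentiableAt ℝ (fun y => star (v y k) * (G y *ᵥ u y) k) x :=
    fun k _ => (dfa (contDiff_star ((contDiff_pi.1 hv) k)) x).mul (dfa ((contDiff_pi.1 hGu) k) x)
  rw [pd_sum hd, ← Finset.sum_add_distrib, ← Finset.sum_add_distrib]
  refine Finset.sum_congr rfl fun k _ => ?_
  rw [pd_mul (dfa (contDiff_star ((contDiff_pi.1 hv) k)) x) (dfa ((contDiff_pi.1 hGu) k) x) i,
    pd_star (dfa ((contDiff_pi.1 hv) k) x), ← pd_pi (dfa hGu x) i k, pd_mulVec hG hu,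
    pd_pi (dfa hv x) i k]
  simp only [Pi.add_apply]
  ring

/-- The pointwise identity behind the reduction. -/
theorem energy_pt {s : MF n} (hs : SmM s) (hsym : ∀ x, (s x).IsSymm) {A : Cn n N} (hA : SmU A)
    {F : MC n N} (hF : SmC F) {u v : V n → Fin N → ℂ} (hu : ContDiff ℝ ∞ u)
    (hv : ContDiff ℝ ∞ v) {x : V n} (hx : LaC s A F x = 0) :
    ∑ i, ∑ j, (s x i j : ℂ) * (cd A i (fun y => F y *ᵥ u y) x ⬝ᵥ
      star (cd A j (fun y => F y *ᵥ v y) x)) =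
    (∑ j, pd j (fun y => bt (v y) ((F y)ᴴ * flC s A F j y) (u y)) x) +
    ((∑ i, ∑ j, bt (pd j v x) (TF s F j i x) (pd i u x)) -
      ∑ i, bt (v x) (qF s A F i x) (pd i u x)) := by
  have e1 : ∀ j, pd j (fun y => bt (v y) ((F y)ᴴ * flC s A F j y) (u y)) x =
      bt (pd j v x) ((F x)ᴴ * flC s A F j x) (u x) +
      (bt (v x) ((cdC A j F x)ᴴ * flC s A F j x) (u x) +
        bt (v x) ((F x)ᴴ * cdC A j (flC s A F j) x) (u x)) +
      bt (v x) ((F x)ᴴ * flC s A F j x) (pd j u x) := by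
    intro j
    have hfl := smC_flC hs hA hF j
    rw [pd_bt hv hu (SmC_mul (SmC_star hF) hfl), pdm_star_mul hA hF hfl, bt_add]
  have e2 : ∑ j, bt (v x) ((F x)ᴴ * cdC A j (flC s A F j) x) (u x) = 0 := by
    rw [← bt_sum, ← Matrix.mul_sum]
    have h2 : ∑ i, cdC A i (flC s A F i) x = 0 := hx
    rw [h2, Matrix.mul_zero, bt_zero]
  simp only [e1, Finset.sum_add_distrib, e2, add_zero]
  have e3 : ∀ i, bt (v x) (qF s A F i x) (pd i u x) =
      bt (v x) ((F x)ᴴ * flC s A F i x) (pd i u x) -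
        bt (v x) ((flC s A F i x)ᴴ * F x) (pd i u x) := by
    intro i
    rw [qF_eq, bt_sub]
  simp only [e3, Finset.sum_sub_distrib]
  have r1 : ∑ j, bt (pd j v x) ((F x)ᴴ * flC s A F j x) (u x) =
      ∑ i, ∑ j, (s x i j : ℂ) * bt (pd j v x) ((F x)ᴴ * cdC A i F x) (u x) := by
    rw [Finset.sum_comm]
    refine Finset.sum_congr rfl fun j _ => ?_
    unfold flC
    rw [Matrix.mul_sum, bt_sum]
    refine Finset.sum_congr rfl fun i _ => ?_
    rw [Matrix.mul_smul, bt_smul, (hsym x).apply i j]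
  have r2 : ∑ j, bt (v x) ((cdC A j F x)ᴴ * flC s A F j x) (u x) =
      ∑ i, ∑ j, (s x i j : ℂ) * bt (v x) ((cdC A j F x)ᴴ * cdC A i F x) (u x) := by
    rw [Finset.sum_comm]
    refine Finset.sum_congr rfl fun j _ => ?_
    unfold flC
    rw [Matrix.mul_sum, bt_sum]
    refine Finset.sum_congr rfl fun i _ => ?_
    rw [Matrix.mul_smul, bt_smul, (hsym x).apply i j]
  have r3 : ∑ i, bt (v x) ((flC s A F i x)ᴴ * F x) (pd i u x) =
      ∑ i, ∑ j, (s x i j : ℂ) * bt (v x) ((cdC A j F x)ᴴ * F x) (pd i u x) := by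
    refine Finset.sum_congr rfl fun i _ => ?_
    rw [flC_star, Matrix.sum_mul, bt_sum]
    refine Finset.sum_congr rfl fun j _ => ?_
    rw [Matrix.smul_mul, bt_smul]
  have r4 : ∑ i, ∑ j, bt (pd j v x) (TF s F j i x) (pd i u x) =
      ∑ i, ∑ j, (s x i j : ℂ) * bt (pd j v x) ((F x)ᴴ * F x) (pd i u x) := by
    refine Finset.sum_congr rfl fun i _ => Finset.sum_congr rfl fun j _ => ?_
    unfold TF PF
    rw [bt_smul, (hsym x).apply i j]
  have l1 : ∑ i, ∑ j, (s x i j : ℂ) * (cd A i (fun y => F y *ᵥ u y) x ⬝ᵥ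
      star (cd A j (fun y => F y *ᵥ v y) x)) =
      (∑ i, ∑ j, (s x i j : ℂ) * bt (v x) ((cdC A j F x)ᴴ * cdC A i F x) (u x)) +
      (∑ i, ∑ j, (s x i j : ℂ) * bt (v x) ((cdC A j F x)ᴴ * F x) (pd i u x)) +
      (∑ i, ∑ j, (s x i j : ℂ) * bt (pd j v x) ((F x)ᴴ * cdC A i F x) (u x)) +
      (∑ i, ∑ j, (s x i j : ℂ) * bt (pd j v x) ((F x)ᴴ * F x) (pd i u x)) := by
    simp only [← Finset.sum_add_distrib]
    refine Finset.sum_congr rfl fun i _ => Finset.sum_congr rfl fun j _ => ?_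
    rw [cd_mulVec A hF hu, cd_mulVec A hF hv, star_add, dotProduct_add, add_dotProduct,
      add_dotProduct, dot_star, dot_star, dot_star, dot_star]
    ring
  rw [l1, r1, r2, r3, r4]
  ring

/-! ### the equation in the harmonic frame, vector functions -/

theorem contDiff_sumPd {s : MF n} (hs : SmM s) {u : V n → Fin N → ℂ} (hu : ContDiff ℝ ∞ u)
    (i : Fin n) : ContDiff ℝ ∞ fun y => ∑ j, (s y i j : ℂ) • pd j u y :=
  ContDiff.sum fun j _ => (Complex.ofRealCLM.contDiff.comp (hs i j)).smul (contDiff_pd hu j)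

theorem smC_PF {F : MC n N} (hF : SmC F) : SmC (PF F) := SmC_mul (SmC_star hF) hF

theorem flux_eq (s : MF n) (A : Cn n N) {F : MC n N} (hF : SmC F) {u : V n → Fin N → ℂ}
    (hu : ContDiff ℝ ∞ u) (i : Fin n) (x : V n) :
    ∑ j, (s x i j : ℂ) • cd A j (fun y => F y *ᵥ u y) x =
      flC s A F i x *ᵥ u x + F x *ᵥ (∑ j, (s x i j : ℂ) • pd j u x) := by
  unfold flC
  rw [Matrix.sum_mulVec, Matrix.mulVec_sum, ← Finset.sum_add_distrib]
  refine Finset.sum_congr rfl fun j _ => ?_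
  rw [cd_mulVec A hF hu, smul_add, Matrix.smul_mulVec, Matrix.mulVec_smul]

theorem cd_add (A : Cn n N) {u v : V n → Fin N → ℂ} (hu : ContDiff ℝ ∞ u) (hv : ContDiff ℝ ∞ v)
    (i : Fin n) (x : V n) : cd A i (fun x => u x + v x) x = cd A i u x + cd A i v x := by
  unfold cd
  rw [pd_add (dfa hu x) (dfa hv x), Matrix.mulVec_add]
  abel

theorem mulVec_sum' {ι : Type*} (u : Finset ι) (M : Matrix (Fin N) (Fin N) ℂ)
    (e : ι → Fin N → ℂ) : M *ᵥ (∑ i ∈ u, e i) = ∑ i ∈ u, M *ᵥ e i := by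
  rw [Matrix.mulVec_sum]

/-- `F* L (F u) = M u + F* (L F) u`. -/
theorem gau_vec {s : MF n} (hs : SmM s) (hsym : ∀ x, (s x).IsSymm) {A : Cn n N} (hA : SmU A)
    {F : MC n N} (hF : SmC F) {u : V n → Fin N → ℂ} (hu : ContDiff ℝ ∞ u) (x : V n) :
    (F x)ᴴ *ᵥ lav s A (fun y => F y *ᵥ u y) x =
      Mo (TF s F) (qF s A F) u x + (F x)ᴴ *ᵥ (LaC s A F x *ᵥ u x) := by
  have hsg : ∀ i, ContDiff ℝ ∞ fun y => ∑ j, (s y i j : ℂ) • pd j u y := contDiff_sumPd hs hu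
  have e1 : lav s A (fun y => F y *ᵥ u y) x = LaC s A F x *ᵥ u x +
      (∑ i, flC s A F i x *ᵥ pd i u x) + (∑ i, cdC A i F x *ᵥ ∑ j, (s x i j : ℂ) • pd j u x) +
      ∑ i, F x *ᵥ pd i (fun y => ∑ j, (s y i j : ℂ) • pd j u y) x := by
    unfold lav
    have h1 : ∀ i, cd A i (fun y => ∑ j, (s y i j : ℂ) • cd A j (fun y => F y *ᵥ u y) y) x =
        cdC A i (flC s A F i) x *ᵥ u x + flC s A F i x *ᵥ pd i u x +
        (cdC A i F x *ᵥ (∑ j, (s x i j : ℂ) • pd j u x) +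
          F x *ᵥ pd i (fun y => ∑ j, (s y i j : ℂ) • pd j u y) x) := by
      intro i
      have e : (fun y => ∑ j, (s y i j : ℂ) • cd A j (fun y => F y *ᵥ u y) y) =
          fun y => flC s A F i y *ᵥ u y + F y *ᵥ (∑ j, (s y i j : ℂ) • pd j u y) := by
        funext y
        exact flux_eq s A hF hu i y
      rw [e, cd_add A (contDiff_mulVec (smC_flC hs hA hF i) hu) (contDiff_mulVec hF (hsg i)),
        cd_mulVec A (smC_flC hs hA hF i) hu, cd_mulVec A hF (hsg i)]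
    simp only [h1, Finset.sum_add_distrib]
    unfold LaC
    rw [Matrix.sum_mulVec]
    abel
  have e2 : ∑ i, cdC A i F x *ᵥ ∑ j, (s x i j : ℂ) • pd j u x = ∑ i, flC s A F i x *ᵥ pd i u x := by
    unfold flC
    simp only [Matrix.mulVec_sum, Matrix.mulVec_smul, Matrix.sum_mulVec, Matrix.smul_mulVec]
    rw [Finset.sum_comm]
    refine Finset.sum_congr rfl fun i _ => Finset.sum_congr rfl fun j _ => ?_
    rw [(hsym x).apply i j]
  have e3 : ∀ i, pd i (fun y => ∑ j, TF s F i j y *ᵥ pd j u y) x =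
      ((cdC A i F x)ᴴ * F x + (F x)ᴴ * cdC A i F x) *ᵥ (∑ j, (s x i j : ℂ) • pd j u x) +
      PF F x *ᵥ pd i (fun y => ∑ j, (s y i j : ℂ) • pd j u y) x := by
    intro i
    have e : (fun y => ∑ j, TF s F i j y *ᵥ pd j u y) =
        fun y => PF F y *ᵥ (∑ j, (s y i j : ℂ) • pd j u y) := by
      funext y
      rw [Matrix.mulVec_sum]
      refine Finset.sum_congr rfl fun j _ => ?_
      unfold TF
      rw [Matrix.smul_mulVec, Matrix.mulVec_smul]
    have e' : pdm i (PF F) x = (cdC A i F x)ᴴ * F x + (F x)ᴴ * cdC A i F x :=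
      pdm_star_mul hA hF hF i x
    rw [e, pd_mulVec (smC_PF hF) (hsg i), e']
  have e4 : ∑ i, ((cdC A i F x)ᴴ * F x) *ᵥ (∑ j, (s x i j : ℂ) • pd j u x) =
      ∑ i, ((flC s A F i x)ᴴ * F x) *ᵥ pd i u x := by
    simp only [flC_star, Matrix.mulVec_sum, Matrix.mulVec_smul, Matrix.sum_mul, Matrix.smul_mul,
      Matrix.sum_mulVec, Matrix.smul_mulVec]
    rw [Finset.sum_comm]
    refine Finset.sum_congr rfl fun i _ => Finset.sum_congr rfl fun j _ => ?_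
    rw [(hsym x).apply i j]
  have e5 : ∑ i, ((F x)ᴴ * cdC A i F x) *ᵥ (∑ j, (s x i j : ℂ) • pd j u x) =
      ∑ i, ((F x)ᴴ * flC s A F i x) *ᵥ pd i u x := by
    have h : (F x)ᴴ *ᵥ (∑ i, cdC A i F x *ᵥ ∑ j, (s x i j : ℂ) • pd j u x) =
        (F x)ᴴ *ᵥ ∑ i, flC s A F i x *ᵥ pd i u x := by rw [e2]
    rw [mulVec_sum', mulVec_sum'] at h
    simpa only [Matrix.mulVec_mulVec] using h
  unfold Mo
  simp only [e3, qF_eq, Matrix.add_mulVec, Matrix.sub_mulVec, Finset.sum_add_distrib,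
    Finset.sum_sub_distrib]
  rw [e4, e5, e1, e2, Matrix.mulVec_add, Matrix.mulVec_add, Matrix.mulVec_add, mulVec_sum',
    mulVec_sum']
  simp only [Matrix.mulVec_mulVec]
  unfold PF
  abel

/-! ### the transposed equation -/

theorem contDiff_starV {u : V n → Fin N → ℂ} (hu : ContDiff ℝ ∞ u) :
    ContDiff ℝ ∞ fun y => star (u y) :=
  contDiff_pi.2 fun k => contDiff_star ((contDiff_pi.1 hu) k)

theorem pd_starV {u : V n → Fin N → ℂ} (hu : ContDiff ℝ ∞ u) (i : Fin n) (x : V n) :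
    pd i (fun y => star (u y)) x = star (pd i u x) := by
  funext k
  rw [pd_pi (dfa (contDiff_starV hu) x) i k, Pi.star_apply, pd_pi (dfa hu x) i k]
  exact pd_star (dfa ((contDiff_pi.1 hu) k) x) i

theorem smC_TF {s : MF n} (hs : SmM s) {F : MC n N} (hF : SmC F) (i j : Fin n) :
    SmC (TF s F i j) := smC_smul (hs i j) (smC_PF hF)

theorem TF_star {s : MF n} (hsym : ∀ x, (s x).IsSymm) (F : MC n N) (i j : Fin n) (x : V n) :
    (TF s F i j x)ᴴ = TF s F j i x := by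
  unfold TF PF
  rw [Matrix.conjTranspose_smul, Matrix.conjTranspose_mul, Matrix.conjTranspose_conjTranspose,
    (hsym x).apply i j]
  congr 1
  exact Complex.conj_ofReal _

theorem qF_star (s : MF n) (A : Cn n N) (F : MC n N) (i : Fin n) (x : V n) :
    (qF s A F i x)ᴴ = -qF s A F i x := by
  rw [qF_eq, Matrix.conjTranspose_sub, Matrix.conjTranspose_mul, Matrix.conjTranspose_mul,
    Matrix.conjTranspose_conjTranspose, Matrix.conjTranspose_conjTranspose, neg_sub]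

theorem Mt_star {s : MF n} (hs : SmM s) (hsym : ∀ x, (s x).IsSymm) (A : Cn n N)
    {F : MC n N} (hF : SmC F) {v : V n → Fin N → ℂ} (hv : ContDiff ℝ ∞ v) (x : V n) :
    Mt (TF s F) (qF s A F) (fun y => star (v y)) x = star (Mo (TF s F) (qF s A F) v x) := by
  have h1 : ∀ i, (fun y => ∑ j, pd j (fun y => star (v y)) y ᵥ* TF s F j i y) =
      fun y => star (∑ j, TF s F i j y *ᵥ pd j v y) := by
    intro i
    funext y
    rw [star_sum]
    refine Finset.sum_congr rfl fun j _ => ?_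
    rw [Matrix.star_mulVec, TF_star hsym, pd_starV hv]
  have h2 : ∀ i, ContDiff ℝ ∞ fun y => ∑ j, TF s F i j y *ᵥ pd j v y := fun i =>
    ContDiff.sum fun j _ => contDiff_mulVec (smC_TF hs hF i j) (contDiff_pd hv j)
  unfold Mt Mo
  rw [star_add, star_sum, star_sum, sub_eq_add_neg, ← Finset.sum_neg_distrib]
  refine congrArg₂ (· + ·) (Finset.sum_congr rfl fun i _ => ?_)
    (Finset.sum_congr rfl fun i _ => ?_)
  · rw [h1 i]
    exact pd_starV (h2 i) i x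
  · rw [Matrix.star_mulVec, qF_star, Matrix.vecMul_neg, pd_starV hv]

theorem lav_zero {s : MF n} (hs : SmM s) (hsym : ∀ x, (s x).IsSymm) {A : Cn n N} (hA : SmU A)
    {F : MC n N} (hF : SmC F) {u : V n → Fin N → ℂ} (hu : ContDiff ℝ ∞ u) {x : V n}
    (hd : IsUnit (F x).det) (hL : LaC s A F x = 0) (hM : Mo (TF s F) (qF s A F) u x = 0) :
    lav s A (fun y => F y *ᵥ u y) x = 0 := by
  have h := gau_vec hs hsym hA hF hu x
  rw [hM, hL, Matrix.zero_mulVec, Matrix.mulVec_zero, add_zero] at h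
  refine Matrix.eq_zero_of_mulVec_eq_zero ?_ h
  rw [Matrix.det_conjTranspose]
  exact star_ne_zero.2 hd.ne_zero

/-! ### the form -/

theorem ea_cont {s : MF n} (hs : SmM s) {A : Cn n N} (hA : SmU A)
    {u v : V n → Fin N → ℂ} (hu : ContDiff ℝ ∞ u) (hv : ContDiff ℝ ∞ v) :
    Continuous fun x => ∑ i, ∑ j, (s x i j : ℂ) * (cd A i u x ⬝ᵥ star (cd A j v x)) := by
  refine continuous_finsetSum _ fun i _ => continuous_finsetSum _ fun j _ => ?_
  refine (Complex.continuous_ofReal.comp (hs i j).continuous).mul ?_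
  simp only [dotProduct, Pi.star_apply]
  refine continuous_finsetSum _ fun b _ => ?_
  exact ((continuous_pi_iff.1 (contDiff_cd hA hu i).continuous) b).mul
    (continuous_star.comp ((continuous_pi_iff.1 (contDiff_cd hA hv j).continuous) b))

section ea

variable {Ω : Set (V n)} (hb : Bornology.IsBounded Ω) {s : MF n} (hs : SmM s)
  {A : Cn n N} (hA : SmU A)

include hb hs hA

theorem ea_sub_right {u v v' : V n → Fin N → ℂ} (hu : ContDiff ℝ ∞ u) (hv : ContDiff ℝ ∞ v)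
    (hv' : ContDiff ℝ ∞ v') :
    ea Ω s A u (fun x => v x - v' x) = ea Ω s A u v - ea Ω s A u v' := by
  unfold ea
  rw [← integral_sub (intOn hb (ea_cont hs hA hu hv)) (intOn hb (ea_cont hs hA hu hv'))]
  congr 1
  funext x
  rw [← Finset.sum_sub_distrib]
  refine Finset.sum_congr rfl fun i _ => ?_
  rw [← Finset.sum_sub_distrib]
  refine Finset.sum_congr rfl fun j _ => ?_
  rw [cd_sub A hv hv', star_sub, dotProduct_sub, mul_sub]

theorem ea_sub_left {u u' v : V n → Fin N → ℂ} (hu : ContDiff ℝ ∞ u) (hu' : ContDiff ℝ ∞ u')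
    (hv : ContDiff ℝ ∞ v) :
    ea Ω s A (fun x => u x - u' x) v = ea Ω s A u v - ea Ω s A u' v := by
  unfold ea
  rw [← integral_sub (intOn hb (ea_cont hs hA hu hv)) (intOn hb (ea_cont hs hA hu' hv))]
  congr 1
  funext x
  rw [← Finset.sum_sub_distrib]
  refine Finset.sum_congr rfl fun i _ => ?_
  rw [← Finset.sum_sub_distrib]
  refine Finset.sum_congr rfl fun j _ => ?_
  rw [cd_sub A hu hu', sub_dotProduct, mul_sub]

end ea

theorem contDiff_bt {v u : V n → Fin N → ℂ} (hv : ContDiff ℝ ∞ v) (hu : ContDiff ℝ ∞ u)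
    {G : MC n N} (hG : SmC G) : ContDiff ℝ ∞ fun y => bt (v y) (G y) (u y) := by
  have hGu := contDiff_mulVec hG hu
  unfold bt
  simp only [dotProduct, Pi.star_apply]
  exact ContDiff.sum fun k _ => (contDiff_star ((contDiff_pi.1 hv) k)).mul ((contDiff_pi.1 hGu) k)

theorem smC_qF {s : MF n} (hs : SmM s) {A : Cn n N} (hA : SmU A) {F : MC n N} (hF : SmC F)
    (i : Fin n) : SmC (qF s A F i) := by
  have e : qF s A F i = fun y => (F y)ᴴ * flC s A F i y - (flC s A F i y)ᴴ * F y := by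
    funext y
    exact qF_eq s A F i y
  have hfl := smC_flC hs hA hF i
  rw [e]
  exact smC_sub (SmC_mul (SmC_star hF) hfl) (SmC_mul (SmC_star hfl) hF)

theorem pdm_off {Ω : Set (V n)} (hi : interior (closure Ω) = Ω) {P Q : MC n N} (hP : SmC P)
    (hQ : SmC Q) (h : ∀ x ∉ Ω, P x = Q x) (i : Fin n) {x : V n} (hx : x ∉ Ω) :
    pdm i P x = pdm i Q x := by
  ext a b
  have h1 : pd i (fun y => P y a b - Q y a b) x = 0 := by
    unfold pd
    rw [H158.fderiv_zero_off hi ((hP a b).sub (hQ a b))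
      (fun y hy => by simp only [h y hy, sub_self]) hx]
    rfl
  rw [pd_sub (dfa (hP a b) x) (dfa (hQ a b) x) i] at h1
  exact sub_eq_zero.1 h1

/-- **Row U_RED** -/
theorem red (hWK : RowWK) : RowREDU := by
  intro n N Ω hΩ hb hi s₁ s₂ hs₁ hs₂ hsy₁ hsy₂ hoff A₁ A₂ hA₁ hA₂ hAoff F₁ F₂ hF₁ hF₂ hd₁ hd₂
    hFoff hL₁ hL₂ hOr
  refine ⟨fun x hx => div_qF hs₁ hsy₁ hA₁ hF₁ (hL₁ x hx),
    fun x hx => div_qF hs₂ hsy₂ hA₂ hF₂ (hL₂ x hx), ?_⟩
  intro u w hu hw hM hMt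
  -- `v = star w`
  obtain ⟨v, hv, rfl⟩ : ∃ v : V n → Fin N → ℂ, ContDiff ℝ ∞ v ∧ (fun y => star (v y)) = w :=
    ⟨fun y => star (w y), contDiff_starV hw, by funext y; exact star_star _⟩
  have hMv : ∀ x ∈ Ω, Mo (TF s₂ F₂) (qF s₂ A₂ F₂) v x = 0 := by
    intro x hx
    have := hMt x hx
    rw [Mt_star hs₂ hsy₂ A₂ hF₂ hv x] at this
    exact star_eq_zero.1 this
  have hu1 : ContDiff ℝ ∞ fun y => F₁ y *ᵥ u y := contDiff_mulVec hF₁ hu
  have hu2 : ContDiff ℝ ∞ fun y => F₂ y *ᵥ u y := contDiff_mulVec hF₂ hu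
  have hv1 : ContDiff ℝ ∞ fun y => F₁ y *ᵥ v y := contDiff_mulVec hF₁ hv
  have hv2 : ContDiff ℝ ∞ fun y => F₂ y *ᵥ v y := contDiff_mulVec hF₂ hv
  have z1 : ∀ x ∈ Ω, lav s₁ A₁ (fun y => F₁ y *ᵥ u y) x = 0 := fun x hx =>
    lav_zero hs₁ hsy₁ hA₁ hF₁ hu (hd₁ x) (hL₁ x hx) (hM x hx)
  have z2 : ∀ x ∈ Ω, lav s₂ A₂ (fun y => F₂ y *ᵥ v y) x = 0 := fun x hx =>
    lav_zero hs₂ hsy₂ hA₂ hF₂ hv (hd₂ x) (hL₂ x hx) (hMv x hx)
  have hfr : ∀ x ∈ frontier Ω, x ∉ Ω := fun x hx => by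
    rw [hΩ.frontier_eq] at hx
    exact hx.2
  have c1 := hOr _ _ hu1 hv2 z1 z2
  have c2 := (hWK Ω hΩ hb s₁ hs₁ hsy₁ A₁ hA₁ (fun y => F₁ y *ᵥ u y)
    (fun x => F₂ x *ᵥ v x - F₁ x *ᵥ v x) hu1 (hv2.sub hv1) z1
    (fun x hx => by simp only [hFoff x (hfr x hx), sub_self])).1
  have c3 := (hWK Ω hΩ hb s₂ hs₂ hsy₂ A₂ hA₂ (fun y => F₂ y *ᵥ v y)
    (fun x => F₂ x *ᵥ u x - F₁ x *ᵥ u x) hv2 (hu2.sub hu1) z2
    (fun x hx => by simp only [hFoff x (hfr x hx), sub_self])).2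
  rw [ea_sub_right hb hs₁ hA₁ hu1 hv2 hv1] at c2
  rw [ea_sub_left hb hs₂ hA₂ hu2 hu1 hv2] at c3
  have c4 : ea Ω s₂ A₂ (fun y => F₂ y *ᵥ u y) (fun y => F₂ y *ᵥ v y) -
      ea Ω s₁ A₁ (fun y => F₁ y *ᵥ u y) (fun y => F₁ y *ᵥ v y) = 0 := by
    linear_combination c3 + c2 - c1
  -- the flux matrices
  have hf1 : ∀ j, SmC fun y => (F₁ y)ᴴ * flC s₁ A₁ F₁ j y := fun j =>
    SmC_mul (SmC_star hF₁) (smC_flC hs₁ hA₁ hF₁ j)
  have hf2 : ∀ j, SmC fun y => (F₂ y)ᴴ * flC s₂ A₂ F₂ j y := fun j =>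
    SmC_mul (SmC_star hF₂) (smC_flC hs₂ hA₂ hF₂ j)
  have hG : ∀ j, ContDiff ℝ ∞ fun y =>
      bt (v y) ((F₂ y)ᴴ * flC s₂ A₂ F₂ j y - (F₁ y)ᴴ * flC s₁ A₁ F₁ j y) (u y) := fun j =>
    contDiff_bt hv hu (smC_sub (hf2 j) (hf1 j))
  have hG0 : ∀ j, ∀ x ∉ Ω,
      bt (v x) ((F₂ x)ᴴ * flC s₂ A₂ F₂ j x - (F₁ x)ᴴ * flC s₁ A₁ F₁ j x) (u x) = 0 := by
    intro j x hx
    have e : flC s₂ A₂ F₂ j x = flC s₁ A₁ F₁ j x := by
      unfold flC cdC
      refine Finset.sum_congr rfl fun k _ => ?_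
      rw [hoff x hx, hAoff k x hx, hFoff x hx, pdm_off hi hF₂ hF₁ hFoff k hx]
    rw [e, hFoff x hx, sub_self, bt_zero]
  have h5 : ∫ x in Ω, ∑ j, pd j (fun y =>
      bt (v y) ((F₂ y)ᴴ * flC s₂ A₂ F₂ j y - (F₁ y)ᴴ * flC s₁ A₁ F₁ j y) (u y)) x = 0 := by
    have h6 : ∫ x, ∑ j, pd j (fun y =>
        bt (v y) ((F₂ y)ᴴ * flC s₂ A₂ F₂ j y - (F₁ y)ᴴ * flC s₁ A₁ F₁ j y) (u y)) x = 0 := by
      rw [integral_finsetSum _ fun i _ => (H158.integral_pd_zero hb (hG i) (hG0 i) i).1]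
      exact Finset.sum_eq_zero fun i _ => (H158.integral_pd_zero hb (hG i) (hG0 i) i).2
    rw [setIntegral_eq_integral_of_forall_compl_eq_zero, h6]
    intro x hx
    refine Finset.sum_eq_zero fun i _ => ?_
    unfold pd
    rw [H158.fderiv_zero_off hi (hG i) (hG0 i) hx]
    rfl
  -- the two energies
  have k1 := ea_cont hs₁ hA₁ hu1 hv1
  have k2 := ea_cont hs₂ hA₂ hu2 hv2
  have k3 : Continuous fun x => ∑ j, pd j (fun y =>
      bt (v y) ((F₂ y)ᴴ * flC s₂ A₂ F₂ j y - (F₁ y)ᴴ * flC s₁ A₁ F₁ j y) (u y)) x :=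
    continuous_finsetSum _ fun j _ => (contDiff_pd (hG j) j).continuous
  have k4 : Continuous fun x => (∑ i, ∑ j, bt (pd j v x) (TF s₂ F₂ j i x - TF s₁ F₁ j i x)
      (pd i u x)) - ∑ i, bt (v x) (qF s₂ A₂ F₂ i x - qF s₁ A₁ F₁ i x) (pd i u x) := by
    refine Continuous.sub (continuous_finsetSum _ fun i _ => continuous_finsetSum _ fun j _ => ?_)
      (continuous_finsetSum _ fun i _ => ?_)
    · exact (contDiff_bt (contDiff_pd hv j) (contDiff_pd hu i)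
        (smC_sub (smC_TF hs₂ hF₂ j i) (smC_TF hs₁ hF₁ j i))).continuous
    · exact (contDiff_bt hv (contDiff_pd hu i)
        (smC_sub (smC_qF hs₂ hA₂ hF₂ i) (smC_qF hs₁ hA₁ hF₁ i))).continuous
  have c5 : ea Ω s₂ A₂ (fun y => F₂ y *ᵥ u y) (fun y => F₂ y *ᵥ v y) -
      ea Ω s₁ A₁ (fun y => F₁ y *ᵥ u y) (fun y => F₁ y *ᵥ v y) =
      (∫ x in Ω, ∑ j, pd j (fun y =>
        bt (v y) ((F₂ y)ᴴ * flC s₂ A₂ F₂ j y - (F₁ y)ᴴ * flC s₁ A₁ F₁ j y) (u y)) x) +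
      ∫ x in Ω, ((∑ i, ∑ j, bt (pd j v x) (TF s₂ F₂ j i x - TF s₁ F₁ j i x)
      (pd i u x)) - ∑ i, bt (v x) (qF s₂ A₂ F₂ i x - qF s₁ A₁ F₁ i x) (pd i u x)) := by
    rw [← integral_add (intOn hb k3) (intOn hb k4)]
    unfold ea
    rw [← integral_sub (intOn hb k2) (intOn hb k1)]
    refine setIntegral_congr_fun hΩ.measurableSet fun x hx => ?_
    show (∑ i, ∑ j, (s₂ x i j : ℂ) * (cd A₂ i (fun y => F₂ y *ᵥ u y) x ⬝ᵥ
        star (cd A₂ j (fun y => F₂ y *ᵥ v y) x))) -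
      (∑ i, ∑ j, (s₁ x i j : ℂ) * (cd A₁ i (fun y => F₁ y *ᵥ u y) x ⬝ᵥ
        star (cd A₁ j (fun y => F₁ y *ᵥ v y) x))) =
      (∑ j, pd j (fun y =>
        bt (v y) ((F₂ y)ᴴ * flC s₂ A₂ F₂ j y - (F₁ y)ᴴ * flC s₁ A₁ F₁ j y) (u y)) x) +
      ((∑ i, ∑ j, bt (pd j v x) (TF s₂ F₂ j i x - TF s₁ F₁ j i x)
      (pd i u x)) - ∑ i, bt (v x) (qF s₂ A₂ F₂ i x - qF s₁ A₁ F₁ i x) (pd i u x))
    rw [energy_pt hs₂ hsy₂ hA₂ hF₂ hu hv (hL₂ x hx), energy_pt hs₁ hsy₁ hA₁ hF₁ hu hv (hL₁ x hx)]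
    have g1 : ∀ j, pd j (fun y =>
        bt (v y) ((F₂ y)ᴴ * flC s₂ A₂ F₂ j y - (F₁ y)ᴴ * flC s₁ A₁ F₁ j y) (u y)) x =
        pd j (fun y => bt (v y) ((F₂ y)ᴴ * flC s₂ A₂ F₂ j y) (u y)) x -
        pd j (fun y => bt (v y) ((F₁ y)ᴴ * flC s₁ A₁ F₁ j y) (u y)) x := by
      intro j
      simp only [bt_sub]
      exact pd_sub (dfa (contDiff_bt hv hu (hf2 j)) x) (dfa (contDiff_bt hv hu (hf1 j)) x) j
    rw [Finset.sum_congr rfl fun j _ => g1 j]
    simp only [bt_sub, Finset.sum_sub_distrib]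
    ring
  rw [h5, zero_add, c4] at c5
  rw [← c5.symm]
  refine integral_congr_ae (Filter.Eventually.of_forall fun x => ?_)
  simp only [pd_starV hv]
  rfl

end Vale.Agent.P088.LR.U.H129
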