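import Vale.Agent.P088.H198.K.Defs
import Vale.Agent.P088.H129.URed
import Vale.Agent.P088.H292.UPush
import Vale.Agent.P088.H106.UWK
import Vale.Agent.P088.H924.UOrt

/-!
# P088, row K_DAT: equal Dirichlet-to-Neumann forms give the orthogonality and the energies
-/

open MeasureTheory Set
open scoped ContDiff Matrix

noncomputable section

namespace Vale.Agent.P088.LR.K.H129

open Vale.Agent.P088.LR Vale.Agent.P088.LR.CF Vale.Agent.P088.LR.U Vale.Agent.P088.LR.H158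
open Vale.Agent.P088.LR.K

variable {n N : ℕ}

theorem symm_sg (g : MF n) (hp : ∀ x, (g x).PosDef) (x : V n) : (sg g x).IsSymm := by
  have h := (posDef_sg hp x).isHermitian
  exact h

/-- **Row K_DAT** -/
theorem dat : RowDAT := by
  intro n N Ω hΩ hb g₁ g₂ hg₁ hg₂ hp₁ hp₂ A₁ A₂ hA₁ hA₂ hD
  refine ⟨H924.ort Ω hΩ hb g₁ g₂ hg₁ hg₂ hp₁ hp₂ A₁ A₂ hA₁ hA₂ hD, ?_⟩
  intro u hu hu0
  have hs₁ := smM_sg hg₁ hp₁
  have hs₂ := smM_sg hg₂ hp₂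
  have hy₁ := symm_sg g₁ hp₁
  have hy₂ := symm_sg g₂ hp₂
  have hfr : ∀ x ∈ frontier Ω, x ∉ Ω := fun x hx => by
    rw [hΩ.frontier_eq] at hx
    exact hx.2
  obtain ⟨u₁, v₁, u', v', h1, h2, h3, h4, he⟩ := hD u u hu hu
  -- the first pair
  have l1 : ∀ x ∈ Ω, lav (sg g₁) A₁ v₁ x = 0 :=
    H292.UP.lav_of_weak hΩ hb hs₁ hy₁ hA₁ h2.1 fun φ hφ h0 =>
      h2.2.2 φ hφ fun x hx => h0 x (hfr x hx)
  have l2 : ∀ x ∈ Ω, lav (sg g₂) A₂ u' x = 0 :=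
    H292.UP.lav_of_weak hΩ hb hs₂ hy₂ hA₂ h3.1 fun φ hφ h0 =>
      h3.2.2 φ hφ fun x hx => h0 x (hfr x hx)
  have e1 := (H106.wk Ω hΩ hb (sg g₁) hs₁ hy₁ A₁ hA₁ v₁ (fun x => u₁ x - u x) h2.1
    (h1.1.sub hu) l1 fun x hx => by
      show u₁ x - u x = 0
      rw [h1.2.1 x hx, sub_self]).2
  have e2 := (H106.wk Ω hΩ hb (sg g₁) hs₁ hy₁ A₁ hA₁ u (fun x => v₁ x - u x) hu
    (h2.1.sub hu) hu0 fun x hx => by
      show v₁ x - u x = 0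
      rw [h2.2.1 x hx, sub_self]).1
  have e3 := (H106.wk Ω hΩ hb (sg g₂) hs₂ hy₂ A₂ hA₂ u' (fun x => v' x - u' x) h3.1
    (h4.1.sub h3.1) l2 fun x hx => by
      show v' x - u' x = 0
      rw [h4.2.1 x hx, h3.2.1 x hx, sub_self]).1
  rw [U.H129.ea_sub_left hb hs₁ hA₁ h1.1 hu h2.1] at e1
  rw [U.H129.ea_sub_right hb hs₁ hA₁ hu h2.1 hu] at e2
  rw [U.H129.ea_sub_right hb hs₂ hA₂ h3.1 h4.1 h3.1] at e3
  have he' : ea Ω (sg g₁) A₁ u₁ v₁ = ea Ω (sg g₂) A₂ u' v' := he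
  refine ⟨u', h3.1, h3.2.1, l2, ?_⟩
  linear_combination e1 + e2 - e3 - he'

end Vale.Agent.P088.LR.K.H129
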