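import Vale.Agent.P088.H198.K.Defs
import Vale.Agent.P088.H393.UEsf7

/-!
# P088, row K_GS: smallness of the gauge transform
-/

open MeasureTheory Set
open scoped ContDiff Matrix

noncomputable section

namespace Vale.Agent.P088.LR.K.H129

open Vale.Agent.P088.LR Vale.Agent.P088.LR.CF Vale.Agent.P088.LR.U Vale.Agent.P088.LR.H158
open Vale.Agent.P088.LR.K

variable {n N : ℕ}

theorem clc_star {k : ℕ} {a : ℝ} {P : MC n N} (hP : SmC P) (h : ClC k a P) :
    ClC k a fun x => (P x)ᴴ := by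
  intro α β
  exact H535.cl_lin (Complex.conjCLE : ℂ →L[ℝ] ℂ) (le_of_eq Complex.conjCLE_norm) (hP β α) (h β α)

theorem smC_one : SmC (fun _ : V n => (1 : Matrix (Fin N) (Fin N) ℂ)) := fun _ _ => contDiff_const

theorem smC_sub' {P Q : MC n N} (hP : SmC P) (hQ : SmC Q) : SmC fun x => P x - Q x := fun a b =>
  (hP a b).sub (hQ a b)

theorem pdm_sub_one {U : MC n N} (hU : SmC U) (i : Fin n) :
    pdm i (fun x => U x - 1) = pdm i U := by
  funext x
  ext a b
  show pd i (fun y => U y a b - (1 : Matrix (Fin N) (Fin N) ℂ) a b) x = pd i (fun y => U y a b) x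
  rw [pd_sub (dfa (hU a b) x) (dfa contDiff_const x) i, pd_const, sub_zero]

/-- **Row K_GS** -/
theorem gs : RowGS := by
  intro n N k ε hε
  have hc : (0 : ℝ) ≤ N * (2 ^ k * ((N * (2 ^ k * 2)) * 2)) + N * (2 ^ k * 2) := by positivity
  refine ⟨min 1 (ε / (N * (2 ^ k * ((N * (2 ^ k * 2)) * 2)) + N * (2 ^ k * 2) + 1)),
    lt_min one_pos (by positivity), ?_⟩
  intro U A hU hA hUU hU1 hA1 i
  set c : ℝ := N * (2 ^ k * ((N * (2 ^ k * 2)) * 2)) + N * (2 ^ k * 2) with hcd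
  set δ : ℝ := min 1 (ε / (c + 1)) with hδ
  have hδ0 : 0 < δ := lt_min one_pos (by positivity)
  have hδ1 : δ ≤ 1 := min_le_left _ _
  have hδ2 : c * δ ≤ ε := by
    have h1 : δ ≤ ε / (c + 1) := min_le_right _ _
    have h2 : δ * (c + 1) ≤ ε := (le_div_iff₀ (by positivity)).1 h1
    nlinarith
  have a1 : ClC k 2 U := H393.clc_mono (H393.clc_near hU (H393.clc_mono hU1 (Nat.le_succ k) le_rfl))
    le_rfl (by linarith)
  have a2 : ClC k 2 fun x => (U x)ᴴ := clc_star hU a1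
  have a3 := H393.clc_mul (SmC_star hU) (hA.1 i) a2 (hA1 i)
  have a4 := H393.clc_mul (SmC_mul (SmC_star hU) (hA.1 i)) hU a3 a1
  have a5 : ClC k δ (pdm i U) := by
    have := H393.clc_pdm (smC_sub' hU smC_one) hU1 i
    rwa [pdm_sub_one hU i] at this
  have hpU : SmC (pdm i U) := fun a b => contDiff_pd (hU a b) i
  have a6 := H393.clc_mul (SmC_star hU) hpU a2 a5
  have a7 := H393.clc_add (SmC_mul (SmC_mul (SmC_star hU) (hA.1 i)) hU)
    (SmC_mul (SmC_star hU) hpU) a4 a6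
  refine H393.clc_mono a7 le_rfl (le_trans (le_of_eq ?_) hδ2)
  rw [hcd]
  ring

end Vale.Agent.P088.LR.K.H129
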